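import Vale.Agent.P210.R2.H53.RDefs
import Vale.Agent.P210.R2.H265.Jet

open scoped Manifold ContDiff Topology Bundle ENNReal NNReal
open Set Metric Filter Bundle IsManifold MeasureTheory Manifold Asymptotics

set_option maxSynthPendingDepth 3

set_option linter.unusedSectionVars false

noncomputable section

namespace Vale.Agent.P210.R2.H34

open H53 H265

section Lin

variable {E : Type*} [NormedAddCommGroup E] [NormedSpace ℝ E] [FiniteDimensional ℝ E]
  {G : E → E →L[ℝ] E →L[ℝ] ℝ} {z : E}

theorem inv_spec (hpos : ∀ v, v ≠ 0 → 0 < G z v v) (α : E →L[ℝ] ℝ) :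
    G z (ContinuousLinearMap.inverse (G z) α) = α := by
  obtain ⟨T, hT⟩ := isInvertible_of_pos hpos
  rw [← hT, ContinuousLinearMap.inverse_equiv]
  simp

theorem inv_unique (hpos : ∀ v, v ≠ 0 → 0 < G z v v) (α : E →L[ℝ] ℝ) (g : E)
    (hg : ∀ w, G z g w = α w) : ContinuousLinearMap.inverse (G z) α = g := by
  by_contra hne
  have h1 := hpos _ (sub_ne_zero.2 hne)
  have h2 := inv_spec hpos α
  rw [map_sub (G z), sub_apply, h2, hg, sub_self] at h1
  exact lt_irrefl _ h1

theorem gam_nonneg (hpos : ∀ v, v ≠ 0 → 0 < G z v v) (α : E →L[ℝ] ℝ) :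
    0 ≤ α (ContinuousLinearMap.inverse (G z) α) := by
  have h2 := inv_spec hpos α
  by_cases h : ContinuousLinearMap.inverse (G z) α = 0
  · rw [h]; simp
  · have h1 := hpos _ h
    rw [h2] at h1
    exact h1.le

theorem gam_symm (hpos : ∀ v, v ≠ 0 → 0 < G z v v) (hs : ∀ v w, G z v w = G z w v)
    (α β : E →L[ℝ] ℝ) :
    α (ContinuousLinearMap.inverse (G z) β) = β (ContinuousLinearMap.inverse (G z) α) := by
  have h1 := inv_spec hpos α
  have h2 := inv_spec hpos β
  calc α (ContinuousLinearMap.inverse (G z) β)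
      = G z (ContinuousLinearMap.inverse (G z) α) (ContinuousLinearMap.inverse (G z) β) := by
        rw [h1]
    _ = G z (ContinuousLinearMap.inverse (G z) β) (ContinuousLinearMap.inverse (G z) α) := hs _ _
    _ = _ := by rw [h2]

omit [FiniteDimensional ℝ E] in
/-- Cauchy-Schwarz for a positive definite form -/
theorem form_cs (hpos : ∀ v, v ≠ 0 → 0 < G z v v) (hs : ∀ v w, G z v w = G z w v) (v w : E) :
    G z v w ^ 2 ≤ G z v v * G z w w := by
  have hnn : ∀ v, 0 ≤ G z v v := fun v => by
    by_cases h : v = 0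
    · simp [h]
    · exact (hpos v h).le
  by_cases hw : w = 0
  · simp [hw]
  have hw' := hpos w hw
  have h1 := hnn (G z w w • v - G z v w • w)
  have h2 : G z (G z w w • v - G z v w • w) (G z w w • v - G z v w • w) =
      G z w w * (G z v v * G z w w - G z v w ^ 2) := by
    simp only [map_sub, map_smul, sub_apply, smul_apply, smul_eq_mul]
    rw [hs w v]
    ring
  rw [h2] at h1
  have h3 := nonneg_of_mul_nonneg_right h1 hw'
  linarith only [h3]

omit [FiniteDimensional ℝ E] in
theorem form_cs_sqrt (hpos : ∀ v, v ≠ 0 → 0 < G z v v) (hs : ∀ v w, G z v w = G z w v)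
    (v w : E) : |G z v w| ≤ √(G z v v) * √(G z w w) := by
  have hnn : ∀ v, 0 ≤ G z v v := fun v => by
    by_cases h : v = 0
    · simp [h]
    · exact (hpos v h).le
  rw [← Real.sqrt_mul (hnn v), ← Real.sqrt_sq_eq_abs]
  exact Real.sqrt_le_sqrt (form_cs hpos hs v w)

theorem gam_cs (hpos : ∀ v, v ≠ 0 → 0 < G z v v) (hs : ∀ v w, G z v w = G z w v)
    (α β : E →L[ℝ] ℝ) :
    α (ContinuousLinearMap.inverse (G z) β) ^ 2 ≤
      α (ContinuousLinearMap.inverse (G z) α) * β (ContinuousLinearMap.inverse (G z) β) := by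
  have h1 := inv_spec hpos α
  have h2 := inv_spec hpos β
  have h3 := form_cs hpos hs (ContinuousLinearMap.inverse (G z) α)
    (ContinuousLinearMap.inverse (G z) β)
  rwa [h1, h2] at h3

/-- change of charts for the dual form -/
theorem gam_change {G' : E → E →L[ℝ] E →L[ℝ] ℝ} {z' : E} {D : E →L[ℝ] E}
    (hpos : ∀ v, v ≠ 0 → 0 < G z v v) (hpos' : ∀ v, v ≠ 0 → 0 < G' z' v v)
    (hD : ∀ v w, G' z' (D v) (D w) = G z v w) (α β : E →L[ℝ] ℝ) :
    (α.comp D) (ContinuousLinearMap.inverse (G z) (β.comp D)) =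
      α (ContinuousLinearMap.inverse (G' z') β) := by
  have hinj : Function.Injective (D : E →ₗ[ℝ] E) := by
    rw [injective_iff_map_eq_zero]
    intro w hw
    by_contra hne
    have h1 := hpos w hne
    have h3 : D w = 0 := hw
    rw [← hD, h3] at h1
    simp at h1
  obtain ⟨g, hg⟩ := (LinearMap.injective_iff_surjective.1 hinj)
    (ContinuousLinearMap.inverse (G' z') β)
  have hg' : D g = ContinuousLinearMap.inverse (G' z') β := hg
  have h1 : ContinuousLinearMap.inverse (G z) (β.comp D) = g := by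
    refine inv_unique hpos _ _ fun w => ?_
    rw [← hD, hg', inv_spec hpos']
    rfl
  rw [h1, ContinuousLinearMap.comp_apply, hg']

end Lin

section Chart

variable {E : Type} [NormedAddCommGroup E] [NormedSpace ℝ E] [FiniteDimensional ℝ E]
  {M : Type} [MetricSpace M] [ChartedSpace E M]
  [RiemannianBundle (fun x : M => TangentSpace 𝓘(ℝ, E) x)]
  [IsManifold 𝓘(ℝ, E) ∞ M]
  [IsContMDiffRiemannianBundle 𝓘(ℝ, E) ∞ E (fun x : M => TangentSpace 𝓘(ℝ, E) x)]

omit [FiniteDimensional ℝ E] [RiemannianBundle (fun x : M => TangentSpace 𝓘(ℝ, E) x)]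
  [IsContMDiffRiemannianBundle 𝓘(ℝ, E) ∞ E (fun x : M => TangentSpace 𝓘(ℝ, E) x)] in
/-- derivative of a function in two charts -/
theorem fderiv_change {e e' : OpenPartialHomeomorph M E}
    (he : e ∈ maximalAtlas 𝓘(ℝ, E) ∞ M) (he' : e' ∈ maximalAtlas 𝓘(ℝ, E) ∞ M) {p : M}
    (hp : p ∈ e.source) (hp' : p ∈ e'.source) (u : M → ℝ) :
    fderiv ℝ (u ∘ e.symm) (e p) =
      (fderiv ℝ (u ∘ e'.symm) (e' p)).comp (fderiv ℝ (e' ∘ e.symm) (e p)) := by
  have key : ∀ e e' : OpenPartialHomeomorph M E, e ∈ maximalAtlas 𝓘(ℝ, E) ∞ M →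
      e' ∈ maximalAtlas 𝓘(ℝ, E) ∞ M → p ∈ e.source → p ∈ e'.source →
      DifferentiableAt ℝ (u ∘ e'.symm) (e' p) →
      HasFDerivAt (u ∘ e.symm)
        ((fderiv ℝ (u ∘ e'.symm) (e' p)).comp (fderiv ℝ (e' ∘ e.symm) (e p))) (e p) := by
    intro e e' he he' hp hp' hd
    have hzV : e p ∈ (e.symm ≫ₕ e').source := by simp [hp, hp']
    have hτ : DifferentiableAt ℝ (e' ∘ e.symm) (e p) :=
      ((transition_real he he').contDiffAt
        ((e.symm ≫ₕ e').open_source.mem_nhds hzV)).differentiableAt (by simp)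
    have hpt : (e' ∘ e.symm) (e p) = e' p := by simp [e.left_inv hp]
    have hd2 : HasFDerivAt (u ∘ e'.symm) (fderiv ℝ (u ∘ e'.symm) (e' p))
        ((e' ∘ e.symm) (e p)) := by
      rw [hpt]; exact hd.hasFDerivAt
    refine (hd2.comp (e p) hτ.hasFDerivAt).congr_of_eventuallyEq ?_
    filter_upwards [(e.symm ≫ₕ e').open_source.mem_nhds hzV] with y hy
    have : e.symm y ∈ e'.source := by simpa using hy.2
    simp [e'.left_inv this]
  by_cases hd : DifferentiableAt ℝ (u ∘ e'.symm) (e' p)
  · exact (key e e' he he' hp hp' hd).fderiv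
  · rw [fderiv_zero_of_not_differentiableAt hd, ContinuousLinearMap.zero_comp]
    refine fderiv_zero_of_not_differentiableAt fun h => hd ?_
    exact (key e' e he' he hp' hp h).differentiableAt

theorem gam_chart (u v : M → ℝ) (p : M) {e : OpenPartialHomeomorph M E}
    (he : e ∈ maximalAtlas 𝓘(ℝ, E) ∞ M) (hp : p ∈ e.source) :
    Gam E u v p = gamG (chartG e) (u ∘ e.symm) (v ∘ e.symm) (e p) := by
  have he' : chartAt E p ∈ maximalAtlas 𝓘(ℝ, E) ∞ M := chart_mem_maximalAtlas p
  have hp' : p ∈ (chartAt E p).source := mem_chart_source E p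
  rw [Gam, gamG, gamG, gradG, gradG, fderiv_change he he' hp hp' u, fderiv_change he he' hp hp' v]
  exact (gam_change (fun v hv => chartG_pos he (e.map_source hp) v hv)
    (fun v hv => chartG_pos he' ((chartAt E p).map_source hp') v hv)
    (fun v w => chartG_change he he' hp hp' v w) _ _).symm

omit [FiniteDimensional ℝ E] [RiemannianBundle (fun x : M => TangentSpace 𝓘(ℝ, E) x)]
  [IsContMDiffRiemannianBundle 𝓘(ℝ, E) ∞ E (fun x : M => TangentSpace 𝓘(ℝ, E) x)] in
theorem diff_chart {u : M → ℝ} {p : M} {e : OpenPartialHomeomorph M E}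
    (he : e ∈ maximalAtlas 𝓘(ℝ, E) ∞ M) (hp : p ∈ e.source)
    (hu : MDifferentiableAt 𝓘(ℝ, E) 𝓘(ℝ, ℝ) u p) : DifferentiableAt ℝ (u ∘ e.symm) (e p) := by
  rw [← mdifferentiableAt_iff_differentiableAt]
  have h1 : MDifferentiableAt 𝓘(ℝ, E) 𝓘(ℝ, E) e.symm (e p) :=
    ((contMDiffOn_symm_of_mem_maximalAtlas he).contMDiffAt
      (e.open_target.mem_nhds (e.map_source hp))).mdifferentiableAt (by simp)
  have h2 : MDifferentiableAt 𝓘(ℝ, E) 𝓘(ℝ, ℝ) u (e.symm (e p)) := by
    rw [e.left_inv hp]; exact hu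
  exact h2.comp (e p) h1

omit [FiniteDimensional ℝ E] [RiemannianBundle (fun x : M => TangentSpace 𝓘(ℝ, E) x)]
  [IsManifold 𝓘(ℝ, E) ∞ M]
  [IsContMDiffRiemannianBundle 𝓘(ℝ, E) ∞ E (fun x : M => TangentSpace 𝓘(ℝ, E) x)] in
theorem evEq_chart {u v : M → ℝ} {p : M} {e : OpenPartialHomeomorph M E} (hp : p ∈ e.source)
    (h : u =ᶠ[𝓝 p] v) : u ∘ e.symm =ᶠ[𝓝 (e p)] v ∘ e.symm := by
  have h1 : Tendsto e.symm (𝓝 (e p)) (𝓝 p) := by
    have := e.continuousAt_symm (e.map_source hp)
    rw [ContinuousAt, e.left_inv hp] at this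
    exact this
  exact h.comp_tendsto h1

end Chart

section Dist

variable {E : Type} [NormedAddCommGroup E] [NormedSpace ℝ E] [FiniteDimensional ℝ E]
  {M : Type} [MetricSpace M] [ChartedSpace E M]
  [RiemannianBundle (fun x : M => TangentSpace 𝓘(ℝ, E) x)]
  [IsManifold 𝓘(ℝ, E) ∞ M]
  [IsContMDiffRiemannianBundle 𝓘(ℝ, E) ∞ E (fun x : M => TangentSpace 𝓘(ℝ, E) x)]
  [IsRiemannianManifold 𝓘(ℝ, E) M]

/-- first order lower bound of the distance in a chart -/
theorem chart_le_dist {e : OpenPartialHomeomorph M E}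
    (he : e ∈ maximalAtlas 𝓘(ℝ, E) ∞ M) {p : M} (hp : p ∈ e.source) {ε : ℝ} (hε : 0 < ε) :
    ∃ ρ > 0, ball p ρ ⊆ e.source ∧ ∀ x ∈ ball p ρ, ∀ y ∈ ball p ρ,
      √(chartG e (e p) (e y - e x) (e y - e x)) ≤ (1 + ε) * dist x y := by
  set z : E := e p with hzdef
  have hz : z ∈ e.target := e.map_source hp
  have hposz : ∀ v, v ≠ 0 → 0 < chartG e z v v := fun v hv => chartG_pos he hz v hv
  have hsz : ∀ v w, chartG e z v w = chartG e z w v := chartG_symm e z
  obtain ⟨m, hm, hlow⟩ := H265.exists_lower (chartG e z) hposz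
  have hcont : ContinuousAt (chartG e) z :=
    (contDiffOn_chartG he).continuousOn.continuousAt (e.open_target.mem_nhds hz)
  set κ : ℝ := 1 - 1 / (1 + ε) ^ 2 with hκ
  have hκ0 : 0 < κ := by
    rw [hκ, sub_pos, div_lt_one (by positivity)]
    nlinarith
  obtain ⟨δ, hδ, hb⟩ := Metric.eventually_nhds_iff.1
    (Metric.continuousAt_iff'.1 hcont (m * κ) (by positivity))
  have hnear : ∀ x, dist x z < δ → ∀ v, chartG e z v v ≤ (1 + ε) ^ 2 * chartG e x v v := by
    intro x hx v
    have h1 := hb hx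
    rw [dist_eq_norm] at h1
    have h2 : |(chartG e x - chartG e z) v v| ≤ m * κ * ‖v‖ ^ 2 := by
      calc _ ≤ ‖chartG e x - chartG e z‖ * ‖v‖ * ‖v‖ := ContinuousLinearMap.le_opNorm₂ _ _ _
        _ ≤ m * κ * ‖v‖ * ‖v‖ := by gcongr
        _ = _ := by ring
    have h3 := (abs_le.1 h2).1
    simp only [sub_apply] at h3
    have h4 : m * κ * ‖v‖ ^ 2 ≤ κ * chartG e z v v := by
      have := mul_le_mul_of_nonneg_left (hlow v) hκ0.le
      linarith only [this]
    have h5 : 1 / (1 + ε) ^ 2 * chartG e z v v ≤ chartG e x v v := by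
      have : 1 / (1 + ε) ^ 2 = 1 - κ := by rw [hκ]; ring
      rw [this]
      linarith only [h3, h4]
    have h6 : 0 < (1 + ε) ^ 2 := by positivity
    calc chartG e z v v = (1 + ε) ^ 2 * (1 / (1 + ε) ^ 2 * chartG e z v v) := by
          field_simp
      _ ≤ _ := by gcongr
  obtain ⟨ρ, hρ, hρs⟩ : ∃ ρ > 0, ball p ρ ⊆ e.source ∩ e ⁻¹' ball z δ := by
    have h1 : e.source ∩ e ⁻¹' ball z δ ∈ 𝓝 p :=
      inter_mem (e.open_source.mem_nhds hp)
        ((e.continuousAt hp).preimage_mem_nhds (ball_mem_nhds _ hδ))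
    exact Metric.mem_nhds_iff.1 h1
  refine ⟨ρ / 4, by positivity, fun q hq => (hρs (ball_subset_ball (by linarith) hq)).1, ?_⟩
  intro x hx y hy
  rw [mem_ball] at hx hy
  have hxy : dist x y < ρ / 2 := by
    have := dist_triangle_right x y p
    linarith
  have hball : ball x (3 * ρ / 4) ⊆ ball p ρ := by
    intro q hq
    rw [mem_ball] at hq ⊢
    have := dist_triangle q x p
    linarith
  set w : E := e y - e x with hw
  have hnn : ∀ v, 0 ≤ chartG e z v v := fun v => by
    by_cases h : v = 0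
    · simp [h]
    · exact (hposz v h).le
  refine le_of_forall_pos_le_add fun τ hτ => ?_
  set η : ℝ := min (ρ / 4) (τ / (1 + ε)) with hη
  have hη0 : 0 < η := lt_min (by positivity) (by positivity)
  have hη1 : η ≤ ρ / 4 := min_le_left _ _
  have hη2 : (1 + ε) * η ≤ τ := by
    have : η ≤ τ / (1 + ε) := min_le_right _ _
    rw [le_div_iff₀ (by positivity)] at this
    linarith
  obtain ⟨c, c', hc, hc', hc0, hc1, hct, hlen⟩ := exists_chart_curve he (x := x) (y := y)
    (r := 3 * ρ / 4) (fun q hq => (hρs (hball hq)).1) hη0 (by linarith)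
  have hcb : ∀ t ∈ Icc (0:ℝ) 1, dist (c t) z < δ := by
    intro t ht
    have h1 := hct t ht
    have h2 : e.symm (c t) ∈ ball p ρ := hball (by
      rw [mem_ball']
      linarith [h1.2])
    have h3 := (hρs h2).2
    rw [mem_preimage, e.right_inv h1.1, mem_ball] at h3
    exact h3
  have hcc : ContinuousOn c (Icc 0 1) := fun t ht => (hc t ht).continuousWithinAt
  have hGc : ContinuousOn (fun t => chartG e (c t)) (Icc 0 1) :=
    (contDiffOn_chartG he).continuousOn.comp hcc (fun t ht => (hct t ht).1)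
  have hi1 : IntervalIntegrable (fun t => √(chartG e (c t) (c' t) (c' t))) volume 0 1 :=
    ContinuousOn.intervalIntegrable_of_Icc zero_le_one ((hGc.clm_apply hc').clm_apply hc').sqrt
  have hwc : ContinuousOn (fun t => chartG e z w (c' t)) (Icc 0 1) :=
    (chartG e z w).continuous.comp_continuousOn hc'
  have hi2 : IntervalIntegrable (fun t => chartG e z w (c' t)) volume 0 1 :=
    ContinuousOn.intervalIntegrable_of_Icc zero_le_one hwc
  have hftc : ∫ t in (0:ℝ)..1, chartG e z w (c' t) = chartG e z w w := by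
    have h1 := intervalIntegral.integral_eq_sub_of_hasDerivAt_of_le (a := 0) (b := 1)
      (f := fun t => chartG e z w (c t)) (f' := fun t => chartG e z w (c' t)) zero_le_one
      ((chartG e z w).continuous.comp_continuousOn hcc) (fun t ht => by
        have h2 : HasDerivAt c (c' t) t :=
          (hc t (Ioo_subset_Icc_self ht)).hasDerivAt (Icc_mem_nhds ht.1 ht.2)
        exact (chartG e z w).hasFDerivAt.comp_hasDerivAt t h2) hi2
    rw [h1, hc0, hc1, ← map_sub]
  have hle : ∫ t in (0:ℝ)..1, chartG e z w (c' t) ≤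
      ∫ t in (0:ℝ)..1, √(chartG e z w w) * ((1 + ε) * √(chartG e (c t) (c' t) (c' t))) := by
    refine intervalIntegral.integral_mono_on zero_le_one hi2
      ((hi1.const_mul (1 + ε)).const_mul _) fun t ht => ?_
    refine (le_abs_self _).trans ((form_cs_sqrt hposz hsz w (c' t)).trans ?_)
    gcongr
    have h1 := hnear (c t) (hcb t ht) (c' t)
    calc √(chartG e z (c' t) (c' t)) ≤ √((1 + ε) ^ 2 * chartG e (c t) (c' t) (c' t)) :=
          Real.sqrt_le_sqrt h1
      _ = _ := by rw [Real.sqrt_mul (by positivity), Real.sqrt_sq (by positivity)]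
  rw [hftc, intervalIntegral.integral_const_mul, intervalIntegral.integral_const_mul] at hle
  have hle2 : chartG e z w w ≤ √(chartG e z w w) * ((1 + ε) * dist x y + τ) := by
    refine hle.trans ?_
    gcongr
    calc (1 + ε) * ∫ t in (0:ℝ)..1, √(chartG e (c t) (c' t) (c' t))
        ≤ (1 + ε) * (dist x y + η) := by gcongr
      _ ≤ _ := by linarith
  by_cases h0 : √(chartG e z w w) = 0
  · rw [h0]; positivity
  · have hpos : 0 < √(chartG e z w w) := lt_of_le_of_ne (Real.sqrt_nonneg _) (Ne.symm h0)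
    have h1 : √(chartG e z w w) * √(chartG e z w w) ≤
        √(chartG e z w w) * ((1 + ε) * dist x y + τ) := by
      rw [Real.mul_self_sqrt (hnn w)]; exact hle2
    exact le_of_mul_le_mul_left h1 hpos

/-- the gradient is bounded by the pointwise Lipschitz constant -/
theorem gam_le {C : ℝ} {u : M → ℝ} {p : M} (hC : 0 ≤ C)
    (h : ∀ᶠ q in 𝓝 p, |u q - u p| ≤ C * dist q p) : Gam E u u p ≤ C ^ 2 := by
  set e := chartAt E p with hedef
  have he : e ∈ maximalAtlas 𝓘(ℝ, E) ∞ M := chart_mem_maximalAtlas p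
  have hp : p ∈ e.source := mem_chart_source E p
  have hz : e p ∈ e.target := e.map_source hp
  have hpos : ∀ v, v ≠ 0 → 0 < chartG e (e p) v v := fun v hv => chartG_pos he hz v hv
  set f : E → ℝ := u ∘ e.symm with hf
  set L : E →L[ℝ] ℝ := fderiv ℝ f (e p) with hL
  have hgam : Gam E u u p = L (ContinuousLinearMap.inverse (chartG e (e p)) L) := rfl
  by_cases hd : DifferentiableAt ℝ f (e p)
  swap
  · have : L = 0 := fderiv_zero_of_not_differentiableAt hd
    rw [hgam, this, zero_apply]
    positivity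
  have hkey : ∀ v, |L v| ≤ C * √(chartG e (e p) v v) := by
    intro v
    refine le_of_forall_pos_le_add fun τ hτ => ?_
    set S : ℝ := C * √(chartG e (e p) v v) with hS
    have hS0 : 0 ≤ S := by positivity
    set ε : ℝ := τ / (S + 1) with hε
    have hε0 : 0 < ε := by positivity
    have hline : HasDerivAt (fun t : ℝ => e p + t • v) v 0 := by
      simpa using ((hasDerivAt_id (0:ℝ)).smul_const v).const_add (e p)
    have hline0 : e p + (0:ℝ) • v = e p := by simp
    have hcomp : HasDerivAt (fun t : ℝ => f (e p + t • v)) (L v) 0 := by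
      have h1 : HasFDerivAt f L (e p + (0:ℝ) • v) := by rw [hline0]; exact hd.hasFDerivAt
      exact h1.comp_hasDerivAt (0:ℝ) hline
    have htend : Tendsto (fun t : ℝ => e p + t • v) (𝓝 0) (𝓝 (e p)) := by
      have := hline.continuousAt.tendsto
      rwa [hline0] at this
    have hsymm : Tendsto e.symm (𝓝 (e p)) (𝓝 p) := by
      have := e.continuousAt_symm hz
      rwa [ContinuousAt, e.left_inv hp] at this
    have h3 := jet3 he hz hε0
    have h4 : Tendsto (fun t : ℝ => (e p + t • v, e p)) (𝓝 0) (𝓝 (e p, e p)) :=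
      htend.prodMk_nhds tendsto_const_nhds
    have hbd : ∀ᶠ t in 𝓝 (0:ℝ), ‖f (e p + t • v) - f (e p + (0:ℝ) • v)‖ ≤
        (S + τ) * ‖t - 0‖ := by
      filter_upwards [h4.eventually h3, (hsymm.comp htend).eventually h] with t ht1 ht2
      simp only [Function.comp_apply] at ht2
      rw [hline0, sub_zero]
      simp only [e.left_inv hp, add_sub_cancel_left] at ht1
      have h5 : f (e p) = u p := by simp [hf, e.left_inv hp]
      rw [h5, Real.norm_eq_abs]
      refine ht2.trans ?_
      have h6 : √(chartG e (e p) (t • v) (t • v)) = |t| * √(chartG e (e p) v v) := by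
        have : chartG e (e p) (t • v) (t • v) = t ^ 2 * chartG e (e p) v v := by
          simp only [map_smul, smul_apply, smul_eq_mul]
          ring
        rw [this, Real.sqrt_mul (sq_nonneg t), Real.sqrt_sq_eq_abs]
      rw [h6] at ht1
      calc C * dist (e.symm (e p + t • v)) p
          ≤ C * ((1 + ε) * (|t| * √(chartG e (e p) v v))) := by gcongr
        _ = (1 + ε) * S * |t| := by rw [hS]; ring
        _ ≤ (S + τ) * ‖t‖ := by
            rw [Real.norm_eq_abs]
            gcongr
            have h7 : ε * (S + 1) = τ := by rw [hε]; field_simp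
            nlinarith [hε0]
    have := hcomp.le_of_lip' (by positivity) hbd
    rwa [Real.norm_eq_abs] at this
  set g : E := ContinuousLinearMap.inverse (chartG e (e p)) L with hg
  have hgg : chartG e (e p) g g = L g := by rw [hg, inv_spec hpos]
  have hLg : 0 ≤ L g := gam_nonneg hpos L
  have h1 := (le_abs_self _).trans (hkey g)
  rw [hgg] at h1
  rw [hgam]
  have h2 : √(L g) * √(L g) = L g := Real.mul_self_sqrt hLg
  by_cases h0 : √(L g) = 0
  · rw [h0] at h2
    rw [← h2, mul_zero]; positivity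
  · have hpos' : 0 < √(L g) := lt_of_le_of_ne (Real.sqrt_nonneg _) (Ne.symm h0)
    have h3 : √(L g) ≤ C := by
      have : √(L g) * √(L g) ≤ C * √(L g) := by rw [h2]; exact h1
      exact le_of_mul_le_mul_right this hpos'
    calc L g = √(L g) * √(L g) := h2.symm
      _ ≤ C * C := by gcongr
      _ = C ^ 2 := by ring

/-- the distance has gradient of length one where it is differentiable -/
theorem gam_dist [ProperSpace M] {x p : M} (hxp : x ≠ p)
    (hd : MDifferentiableAt 𝓘(ℝ, E) 𝓘(ℝ, ℝ) (fun q => dist x q) p) :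
    Gam E (fun q => dist x q) (fun q => dist x q) p = 1 := by
  set u : M → ℝ := fun q => dist x q with hu
  refine le_antisymm ?_ ?_
  · have := gam_le (E := E) (C := 1) (u := u) (p := p) zero_le_one
      (Eventually.of_forall fun q => by
        rw [one_mul, hu]
        simp only
        rw [dist_comm x q, dist_comm x p]
        exact abs_dist_sub_le q p x)
    simpa using this
  set e := chartAt E p with hedef
  have he : e ∈ maximalAtlas 𝓘(ℝ, E) ∞ M := chart_mem_maximalAtlas p
  have hp : p ∈ e.source := mem_chart_source E p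
  have hz : e p ∈ e.target := e.map_source hp
  have hpos : ∀ v, v ≠ 0 → 0 < chartG e (e p) v v := fun v hv => chartG_pos he hz v hv
  have hsy : ∀ v w, chartG e (e p) v w = chartG e (e p) w v := chartG_symm e (e p)
  set f : E → ℝ := u ∘ e.symm with hf
  have hfd : DifferentiableAt ℝ f (e p) := diff_chart he hp hd
  set L : E →L[ℝ] ℝ := fderiv ℝ f (e p) with hL
  have hgam : Gam E u u p = L (ContinuousLinearMap.inverse (chartG e (e p)) L) := rfl
  set g : E := ContinuousLinearMap.inverse (chartG e (e p)) L with hg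
  have hgg : chartG e (e p) g g = L g := by rw [hg, inv_spec hpos]
  have hLg : 0 ≤ L g := gam_nonneg hpos L
  obtain ⟨m, hm, hlow⟩ := H265.exists_lower (chartG e (e p)) hpos
  rw [hgam]
  set ℓ : ℝ := dist x p with hℓ
  have hℓ0 : 0 < ℓ := dist_pos.2 hxp
  obtain ⟨ρ, hρ, hρs, hρd⟩ := chart_le_dist he hp (ε := 1) one_pos
  -- main estimate
  have hmain : ∀ ε : ℝ, 0 < ε → 1 ≤ (1 + ε) * √(L g) + ε := by
    intro ε hε
    obtain ⟨ρ', hρ', hρs', hρd'⟩ := chart_le_dist he hp hε
    have hlo := hfd.hasFDerivAt.isLittleO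
    have hK : 0 < ε * √m / 2 := by positivity
    have hev := (hlo.def hK)
    rw [Metric.eventually_nhds_iff] at hev
    obtain ⟨δ, hδ, hδ'⟩ := hev
    have hce : ∀ᶠ q in 𝓝 p, dist (e q) (e p) < δ :=
      (e.continuousAt hp).eventually (ball_mem_nhds _ hδ)
    obtain ⟨δ₂, hδ₂, hδ₂'⟩ := Metric.eventually_nhds_iff.1 hce
    set t : ℝ := min (min (ρ / 2) (ρ' / 2)) (min (δ₂ / 2) ℓ) with ht
    have ht0 : 0 < t := lt_min (lt_min (by positivity) (by positivity))
      (lt_min (by positivity) hℓ0)
    have ht1 : t ≤ ρ / 2 := (min_le_left _ _).trans (min_le_left _ _)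
    have ht2 : t ≤ ρ' / 2 := (min_le_left _ _).trans (min_le_right _ _)
    have ht3 : t ≤ δ₂ / 2 := (min_le_right _ _).trans (min_le_left _ _)
    have ht4 : t ≤ ℓ := (min_le_right _ _).trans (min_le_right _ _)
    obtain ⟨q, hq1, hq2⟩ := exists_mid (approxMid_of_riemannian E M) x p (ℓ - t) (by linarith)
      (by linarith)
    have hqp : dist q p = t := by rw [hq2]; linarith
    have hqρ : q ∈ ball p ρ := by rw [mem_ball, hqp]; linarith
    have hqρ' : q ∈ ball p ρ' := by rw [mem_ball, hqp]; linarith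
    have hqs : q ∈ e.source := hρs hqρ
    set w : E := e q - e p with hw
    have hwG : √(chartG e (e p) w w) ≤ (1 + ε) * t := by
      have := hρd' p (mem_ball_self hρ') q hqρ'
      rwa [dist_comm p q, hqp] at this
    have hwG2 : √(chartG e (e p) w w) ≤ 2 * t := by
      have := hρd p (mem_ball_self hρ) q hqρ
      rw [dist_comm p q, hqp] at this
      linarith
    have hwn : √m * ‖w‖ ≤ 2 * t := by
      refine le_trans ?_ hwG2
      rw [← Real.sqrt_sq (norm_nonneg w), ← Real.sqrt_mul hm.le]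
      exact Real.sqrt_le_sqrt (hlow w)
    have h1 := hδ' (y := e q) (hδ₂' (by rw [hqp]; linarith))
    have h2 : f (e q) = ℓ - t := by
      rw [hf, Function.comp_apply, e.left_inv hqs, hu]
      exact hq1
    have h3 : f (e p) = ℓ := by
      rw [hf, Function.comp_apply, e.left_inv hp, hu]
    rw [h2, h3, Real.norm_eq_abs] at h1
    have h4 : ε * √m / 2 * ‖e q - e p‖ ≤ ε * t := by
      have : ε * √m / 2 * ‖e q - e p‖ = ε / 2 * (√m * ‖w‖) := by rw [hw]; ring
      rw [this]
      calc ε / 2 * (√m * ‖w‖) ≤ ε / 2 * (2 * t) := by gcongr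
        _ = ε * t := by ring
    have h5 : |L w| ≤ √(L g) * ((1 + ε) * t) := by
      have h6 := form_cs_sqrt hpos hsy g w
      rw [hgg] at h6
      have h7 : chartG e (e p) g w = L w := by rw [hg, inv_spec hpos]
      rw [h7] at h6
      exact h6.trans (by gcongr)
    have h6 := (abs_le.1 (h1.trans h4))
    have h7 := (abs_le.1 h5)
    have h8 : t ≤ √(L g) * ((1 + ε) * t) + ε * t := by
      have := h6.1
      have := h6.2
      have := h7.1
      have := h7.2
      simp only [hw] at *
      linarith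
    have h9 : t * 1 ≤ t * ((1 + ε) * √(L g) + ε) := by
      calc t * 1 = t := by ring
        _ ≤ √(L g) * ((1 + ε) * t) + ε * t := h8
        _ = _ := by ring
    exact le_of_mul_le_mul_left h9 ht0
  have hlim : 1 ≤ √(L g) := by
    have h1 : Tendsto (fun ε : ℝ => (1 + ε) * √(L g) + ε) (𝓝[>] 0) (𝓝 ((1 + 0) * √(L g) + 0)) := by
      have : Continuous (fun ε : ℝ => (1 + ε) * √(L g) + ε) := by fun_prop
      exact (this.tendsto 0).mono_left nhdsWithin_le_nhds
    have h2 : (1:ℝ) ≤ (1 + 0) * √(L g) + 0 := by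
      refine ge_of_tendsto h1 ?_
      filter_upwards [self_mem_nhdsWithin] with ε hε
      exact hmain ε hε
    simpa using h2
  have h2 : √(L g) * √(L g) = L g := Real.mul_self_sqrt hLg
  nlinarith

end Dist

/-- pointwise rules for the gradients -/
theorem calb : Stmt.CALB := by
  intro E _ _ _ _ _ M _ _ _ _ _ _ _ _ _ _
  refine ⟨?_, ?_, ?_, ?_, ?_, ?_, ?_, ?_, ?_, ?_, ?_⟩
  · intro u v p e he hp
    exact gam_chart u v p he hp
  · intro u v p
    exact gam_symm (fun v hv => chartG_pos (chart_mem_maximalAtlas p) (mem_chart_target E p) v hv)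
      (chartG_symm _ _) _ _
  · intro u p
    exact gam_nonneg (fun v hv => chartG_pos (chart_mem_maximalAtlas p)
      (mem_chart_target E p) v hv) _
  · intro u v p
    exact gam_cs (fun v hv => chartG_pos (chart_mem_maximalAtlas p) (mem_chart_target E p) v hv)
      (chartG_symm _ _) _ _
  · intro u v w p h
    have h1 := (evEq_chart (E := E) (e := chartAt E p) (mem_chart_source E p) h).fderiv_eq
      (𝕜 := ℝ)
    simp only [Gam, gamG, h1]
  · intro u v w p hu hv
    have hu' := diff_chart (chart_mem_maximalAtlas p) (mem_chart_source E p) hu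
    have hv' := diff_chart (chart_mem_maximalAtlas p) (mem_chart_source E p) hv
    have hup : (u ∘ (chartAt E p).symm) (chartAt E p p) = u p := by simp
    have hvp : (v ∘ (chartAt E p).symm) (chartAt E p p) = v p := by simp
    have h1 : fderiv ℝ ((fun q => u q + v q) ∘ (chartAt E p).symm) (chartAt E p p) =
        fderiv ℝ (u ∘ (chartAt E p).symm) (chartAt E p p) +
        fderiv ℝ (v ∘ (chartAt E p).symm) (chartAt E p p) := by
      exact (hu'.hasFDerivAt.add hv'.hasFDerivAt).fderiv
    have h2 : fderiv ℝ ((fun q => u q * v q) ∘ (chartAt E p).symm) (chartAt E p p) =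
        u p • fderiv ℝ (v ∘ (chartAt E p).symm) (chartAt E p p) +
        v p • fderiv ℝ (u ∘ (chartAt E p).symm) (chartAt E p p) := by
      have := (hu'.hasFDerivAt.mul hv'.hasFDerivAt).fderiv
      rw [hup, hvp] at this
      exact this
    constructor
    · simp only [Gam, gamG, h1, add_apply]
    · simp only [Gam, gamG, h2, add_apply, smul_apply, smul_eq_mul]
  · intro c u w p
    have h1 : fderiv ℝ ((fun q => c * u q) ∘ (chartAt E p).symm) (chartAt E p p) =
        c • fderiv ℝ (u ∘ (chartAt E p).symm) (chartAt E p p) := by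
      have : ((fun q => c * u q) ∘ (chartAt E p).symm) =
        c • (u ∘ (chartAt E p).symm) := rfl
      rw [this, fderiv_const_smul_field]
      rfl
    simp only [Gam, gamG, h1, smul_apply, smul_eq_mul]
  · intro c w p
    have h1 : fderiv ℝ ((fun _ : M => c) ∘ (chartAt E p).symm) (chartAt E p p) = 0 := by
      have : ((fun _ : M => c) ∘ (chartAt E p).symm) = fun _ => c := rfl
      rw [this]
      exact (hasFDerivAt_const c _).fderiv
    simp only [Gam, gamG, h1, zero_apply]
  · intro φ u w p hu hφ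
    have hu' := diff_chart (chart_mem_maximalAtlas p) (mem_chart_source E p) hu
    have hup : (u ∘ (chartAt E p).symm) (chartAt E p p) = u p := by simp
    have h1 : fderiv ℝ ((fun q => φ (u q)) ∘ (chartAt E p).symm) (chartAt E p p) =
        deriv φ (u p) • fderiv ℝ (u ∘ (chartAt E p).symm) (chartAt E p p) := by
      have h2 : HasDerivAt φ (deriv φ (u p)) ((u ∘ (chartAt E p).symm) (chartAt E p p)) := by
        rw [hup]; exact hφ.hasDerivAt
      exact (h2.comp_hasFDerivAt _ hu'.hasFDerivAt).fderiv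
    simp only [Gam, gamG, h1, smul_apply, smul_eq_mul]
  · intro C u p hC h
    exact gam_le hC h
  · intro x p hxp hd
    exact gam_dist hxp hd

end Vale.Agent.P210.R2.H34
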