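import Mathlib.Geometry.Manifold.PartitionOfUnity
import Vale.Agent.P210.R2.H53.RSpec
import Vale.Agent.P210.R2.H34.Calb

open scoped Manifold ContDiff Topology Bundle ENNReal NNReal
open Set Metric Filter Bundle IsManifold MeasureTheory Manifold Asymptotics

set_option maxSynthPendingDepth 3

set_option linter.unusedSectionVars false

noncomputable section

namespace Vale.Agent.P210.R2.H34

open H53 H265

section Real

/-- comparison of derivatives from comparison of increments -/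
theorem deriv_compare {a b : ℝ → ℝ} {A B C : ℝ} (ha : HasDerivAt a A 0) (hb : HasDerivAt b B 0)
    (h : ∀ t, |b t - b 0| ≤ C * |a t - a 0|) : |B| ≤ C * |A| := by
  have h1 := ha.tendsto_slope.abs.const_mul C
  have h2 := hb.tendsto_slope.abs
  refine le_of_tendsto_of_tendsto h2 h1 ?_
  filter_upwards [self_mem_nhdsWithin] with t ht
  have ht0 : 0 < |t| := abs_pos.2 ht
  simp only [slope_def_field, sub_zero, abs_div]
  rw [← mul_div_assoc]
  gcongr
  exact h t

theorem deriv_mono {a b : ℝ → ℝ} {A B : ℝ} (ha : HasDerivAt a A 0) (hb : HasDerivAt b B 0)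
    (h : ∀ t, 0 ≤ (b t - b 0) * (a t - a 0)) : 0 ≤ B * A := by
  have h1 := ha.tendsto_slope
  have h2 := hb.tendsto_slope
  refine ge_of_tendsto (h2.mul h1) ?_
  filter_upwards [self_mem_nhdsWithin] with t ht
  simp only [slope_def_field, sub_zero]
  have h3 : (b t - b 0) / t * ((a t - a 0) / t) = (b t - b 0) * (a t - a 0) / t ^ 2 := by
    rw [div_mul_div_comm, sq]
  rw [h3]
  exact div_nonneg (h t) (sq_nonneg t)

end Real

section Flat

variable {E : Type*} [NormedAddCommGroup E] [NormedSpace ℝ E]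

/-- derivative of `φ ∘ f` for a monotone Lipschitz function `φ` -/
theorem fderiv_comp_mono {φ : ℝ → ℝ} {C : ℝ≥0} (hm : Monotone φ) (hL : LipschitzWith C φ)
    {f : E → ℝ} {z : E} (hf : DifferentiableAt ℝ f z) :
    ∃ l : ℝ, 0 ≤ l ∧ l ≤ C ∧ fderiv ℝ (fun y => φ (f y)) z = l • fderiv ℝ f z := by
  by_cases hg : DifferentiableAt ℝ (fun y => φ (f y)) z
  swap
  · exact ⟨0, le_rfl, C.2, by rw [fderiv_zero_of_not_differentiableAt hg, zero_smul]⟩
  set L := fderiv ℝ f z with hLdef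
  set L' := fderiv ℝ (fun y => φ (f y)) z with hL'def
  have hline : ∀ v : E, HasDerivAt (fun t : ℝ => z + t • v) v 0 := fun v => by
    simpa using ((hasDerivAt_id (0:ℝ)).smul_const v).const_add z
  have h0 : ∀ v : E, z + (0:ℝ) • v = z := fun v => by simp
  have ha : ∀ v : E, HasDerivAt (fun t : ℝ => f (z + t • v)) (L v) 0 := fun v => by
    have h1 : HasFDerivAt f L (z + (0:ℝ) • v) := by rw [h0]; exact hf.hasFDerivAt
    exact h1.comp_hasDerivAt (0:ℝ) (hline v)
  have hb : ∀ v : E, HasDerivAt (fun t : ℝ => φ (f (z + t • v))) (L' v) 0 := fun v => by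
    have h1 : HasFDerivAt (fun y => φ (f y)) L' (z + (0:ℝ) • v) := by
      rw [h0]; exact hg.hasFDerivAt
    exact h1.comp_hasDerivAt (0:ℝ) (hline v)
  have hcmp : ∀ v, |L' v| ≤ C * |L v| := fun v => by
    refine deriv_compare (ha v) (hb v) fun t => ?_
    have := hL.dist_le_mul (f (z + t • v)) (f (z + (0:ℝ) • v))
    rwa [Real.dist_eq, Real.dist_eq] at this
  have hmon : ∀ v, 0 ≤ L' v * L v := fun v => by
    refine deriv_mono (ha v) (hb v) fun t => ?_
    rcases le_total (f (z + t • v)) (f (z + (0:ℝ) • v)) with h | h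
    · exact mul_nonneg_of_nonpos_of_nonpos (sub_nonpos.2 (hm h)) (sub_nonpos.2 h)
    · exact mul_nonneg (sub_nonneg.2 (hm h)) (sub_nonneg.2 h)
  have hker : ∀ v, L v = 0 → L' v = 0 := fun v hv => by
    have := hcmp v
    rw [hv, abs_zero, mul_zero] at this
    exact abs_nonpos_iff.1 this
  by_cases hL0 : L = 0
  · refine ⟨0, le_rfl, C.2, ?_⟩
    ext v
    rw [zero_smul, zero_apply]
    exact hker v (by rw [hL0]; rfl)
  obtain ⟨v, hv⟩ : ∃ v, L v ≠ 0 := by
    by_contra hcon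
    push Not at hcon
    exact hL0 (by ext v; simpa using hcon v)
  have hv2 : 0 < L v ^ 2 := by positivity
  refine ⟨L' v / L v, ?_, ?_, ?_⟩
  · have : L' v / L v = L' v * L v / L v ^ 2 := by field_simp
    rw [this]
    exact div_nonneg (hmon v) hv2.le
  · have h1 := hcmp v
    have h2 : L' v / L v ≤ |L' v| / |L v| := by rw [← abs_div]; exact le_abs_self _
    refine h2.trans ?_
    rwa [div_le_iff₀ (abs_pos.2 hv)]
  · ext w
    have h1 := hker (w - (L w / L v) • v) (by
      rw [map_sub, map_smul, smul_eq_mul]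
      field_simp
      ring)
    rw [map_sub, map_smul, smul_eq_mul, sub_eq_zero] at h1
    rw [h1, smul_apply, smul_eq_mul]
    ring

end Flat

section Mfd

variable {E : Type} [NormedAddCommGroup E] [NormedSpace ℝ E] [FiniteDimensional ℝ E]
  {M : Type} [MetricSpace M] [ChartedSpace E M]
  [RiemannianBundle (fun x : M => TangentSpace 𝓘(ℝ, E) x)]
  [IsManifold 𝓘(ℝ, E) ∞ M]
  [IsContMDiffRiemannianBundle 𝓘(ℝ, E) ∞ E (fun x : M => TangentSpace 𝓘(ℝ, E) x)]
  [IsRiemannianManifold 𝓘(ℝ, E) M]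

/-- charts are locally Lipschitz -/
theorem chart_lip {e : OpenPartialHomeomorph M E}
    (he : e ∈ maximalAtlas 𝓘(ℝ, E) ∞ M) {p : M} (hp : p ∈ e.source) :
    ∃ ρ > 0, ∃ K : ℝ, 0 < K ∧ ball p ρ ⊆ e.source ∧ ∀ x ∈ ball p ρ, ∀ y ∈ ball p ρ,
      ‖e y - e x‖ ≤ K * dist x y := by
  have hpos : ∀ v, v ≠ 0 → 0 < chartG e (e p) v v :=
    fun v hv => chartG_pos he (e.map_source hp) v hv
  obtain ⟨m, hm, hlow⟩ := H265.exists_lower (chartG e (e p)) hpos
  obtain ⟨ρ, hρ, hρs, hρd⟩ := chart_le_dist he hp (ε := 1) one_pos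
  refine ⟨ρ, hρ, 2 / √m, by positivity, hρs, fun x hx y hy => ?_⟩
  have h1 := hρd x hx y hy
  have h2 : √m * ‖e y - e x‖ ≤ √(chartG e (e p) (e y - e x) (e y - e x)) := by
    rw [← Real.sqrt_sq (norm_nonneg (e y - e x)), ← Real.sqrt_mul hm.le]
    exact Real.sqrt_le_sqrt (hlow _)
  have h3 : 0 < √m := Real.sqrt_pos.2 hm
  rw [div_mul_eq_mul_div, le_div_iff₀ h3]
  calc ‖e y - e x‖ * √m = √m * ‖e y - e x‖ := by ring
    _ ≤ (1 + 1) * dist x y := h2.trans h1
    _ = 2 * dist x y := by ring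

/-- smooth functions are locally Lipschitz -/
theorem locallyLipschitz_of_contMDiff {u : M → ℝ} (hu : ContMDiff 𝓘(ℝ, E) 𝓘(ℝ, ℝ) ∞ u) :
    LocallyLipschitz u := by
  intro p
  set e := chartAt E p with hedef
  have he : e ∈ maximalAtlas 𝓘(ℝ, E) ∞ M := chart_mem_maximalAtlas p
  have hp : p ∈ e.source := mem_chart_source E p
  obtain ⟨ρ, hρ, K, hK, hρs, hρd⟩ := chart_lip he hp
  have hf : ContDiffAt ℝ 1 (u ∘ e.symm) (e p) := by
    have h1 : ContMDiffAt 𝓘(ℝ, E) 𝓘(ℝ, E) ∞ e.symm (e p) :=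
      (contMDiffOn_symm_of_mem_maximalAtlas he).contMDiffAt
        (e.open_target.mem_nhds (e.map_source hp))
    have h2 : ContMDiffAt 𝓘(ℝ, E) 𝓘(ℝ, ℝ) ∞ (u ∘ e.symm) (e p) :=
      (hu.contMDiffAt (x := e.symm (e p))).comp (e p) h1
    exact (contMDiffAt_iff_contDiffAt.1 h2).of_le (by simp)
  obtain ⟨K', t, ht, hK'⟩ := hf.exists_lipschitzOnWith
  refine ⟨K' * K.toNNReal, ball p ρ ∩ (e.source ∩ e ⁻¹' t), ?_, ?_⟩
  · exact inter_mem (ball_mem_nhds p hρ) (inter_mem (e.open_source.mem_nhds hp)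
      ((e.continuousAt hp).preimage_mem_nhds ht))
  · refine LipschitzOnWith.of_dist_le_mul fun x hx y hy => ?_
    have h1 := hK'.dist_le_mul (e x) hx.2.2 (e y) hy.2.2
    simp only [Function.comp_apply, e.left_inv hx.2.1, e.left_inv hy.2.1] at h1
    refine h1.trans ?_
    rw [dist_comm (e x), dist_eq_norm]
    have h2 := hρd x hx.1 y hy.1
    rw [NNReal.coe_mul, Real.coe_toNNReal K hK.le, mul_assoc]
    gcongr

end Mfd

/-- more calculus -/
theorem cald : Stmt.CALD := by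
  intro E _ _ _ _ _ M _ _ _ _ _ _ _ _ _ _
  refine ⟨?_, ?_, ?_⟩
  · intro u hu
    exact locallyLipschitz_of_contMDiff hu.1
  · intro S U hS hU hSU
    have : SigmaCompactSpace M := inferInstance
    obtain ⟨V, hV, hSV, hVU⟩ := exists_compact_between hS hU hSU
    obtain ⟨f, hf0, hf1, hf⟩ := exists_contMDiffMap_zero_one_nhds_of_isClosed (M := M)
      (n := (⊤ : ℕ∞)) 𝓘(ℝ, E)
      (isOpen_interior (s := V)).isClosed_compl hS.isClosed
      (by rw [← subset_compl_iff_disjoint_left, compl_compl]; exact hSV)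
    obtain ⟨W, hW, hWs, hWf⟩ := (eventually_nhdsSet_iff_exists).1 hf0
    have hts : tsupport f ⊆ interior V := by
      have h1 : Function.support f ⊆ Wᶜ := fun x hx hxW => hx (hWf x hxW)
      have h2 : tsupport f ⊆ Wᶜ := closure_minimal h1 hW.isClosed_compl
      refine h2.trans ?_
      rw [compl_subset_comm]
      exact hWs
    refine ⟨f, ⟨f.contMDiff, ?_⟩, fun p => ⟨(hf p).1, (hf p).2⟩, hf1, ?_⟩
    · exact hV.of_isClosed_subset (isClosed_tsupport _) (hts.trans interior_subset)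
    · exact hts.trans (interior_subset.trans hVU)
  · intro φ C u p hm hL hu
    have hu' := diff_chart (chart_mem_maximalAtlas p) (mem_chart_source E p) hu
    obtain ⟨l, hl0, hlC, hl⟩ := fderiv_comp_mono hm hL hu'
    refine ⟨l, hl0, hlC, fun w => ?_⟩
    have h1 : fderiv ℝ ((fun q => φ (u q)) ∘ (chartAt E p).symm) (chartAt E p p) =
        l • fderiv ℝ (u ∘ (chartAt E p).symm) (chartAt E p p) := hl
    simp only [Gam, gamG, h1, smul_apply, smul_eq_mul]

end Vale.Agent.P210.R2.H34
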