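import Vale.Agent.P210.R2.H53.RCont

open scoped Topology NNReal
open Set Metric

set_option maxSynthPendingDepth 3

set_option linter.unusedSectionVars false

noncomputable section

namespace Vale.Agent.P210.R2.H34

open H53

section

theorem sum_biUnion_le' {α β : Type*} [DecidableEq β] (s : Finset α) (t : α → Finset β) (f : β → ℝ)
    (hf : ∀ a ∈ s, ∀ b ∈ t a, 0 ≤ f b) : ∑ b ∈ s.biUnion t, f b ≤ ∑ a ∈ s, ∑ b ∈ t a, f b := by
  classical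
  induction s using Finset.induction_on with
  | empty => simp
  | @insert a s ha ih =>
    rw [Finset.biUnion_insert, Finset.sum_insert ha]
    have h1 : ∑ b ∈ t a ∪ s.biUnion t, f b ≤ ∑ b ∈ t a, f b + ∑ b ∈ s.biUnion t, f b := by
      rw [← Finset.sum_union_inter]
      refine le_add_of_nonneg_right (Finset.sum_nonneg fun b hb => ?_)
      exact hf a (Finset.mem_insert_self _ _) b (Finset.mem_inter.1 hb).1
    refine h1.trans ?_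
    gcongr
    exact ih fun a' ha' => hf a' (Finset.mem_insert_of_mem ha')

end

section Core

variable {X : Type} [MetricSpace X] {n D : ℕ} {ρ ρ₁ Λ β : ℝ} {A : Set X}

/-- number of the bad scales below `r` -/
def NF (ρ₁ : ℝ) (B : Finset ℕ) (r : ℝ) : ℕ :=
  (B.filter fun k => ρ₁ * 2⁻¹ ^ k < 2 * r).card

/-- weight of a ball -/
def Wt (n : ℕ) (β r : ℝ) : ℝ := r ^ (n - 1) * r ^ (-β)

theorem NF_mono (ρ₁ : ℝ) (B : Finset ℕ) {r s : ℝ} (h : r ≤ s) : NF ρ₁ B r ≤ NF ρ₁ B s := by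
  refine Finset.card_le_card fun k hk => ?_
  rw [Finset.mem_filter] at hk ⊢
  exact ⟨hk.1, hk.2.trans_le (by linarith)⟩

theorem NF_le (ρ₁ : ℝ) (B : Finset ℕ) (r : ℝ) : NF ρ₁ B r ≤ B.card :=
  Finset.card_le_card (Finset.filter_subset _ _)

theorem NF_half {ρ₁ : ℝ} {B : Finset ℕ} {r : ℝ} {k : ℕ} (hk : k ∈ B) (h1 : r ≤ ρ₁ * 2⁻¹ ^ k)
    (h2 : ρ₁ * 2⁻¹ ^ k < 2 * r) : NF ρ₁ B (r / 2) + 1 ≤ NF ρ₁ B r := by
  have h3 : k ∉ B.filter fun k => ρ₁ * 2⁻¹ ^ k < 2 * (r / 2) := by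
    rw [Finset.mem_filter]
    rintro ⟨-, h⟩
    linarith
  rw [NF, ← Finset.card_insert_of_notMem h3]
  refine Finset.card_le_card fun j hj => ?_
  rw [Finset.mem_insert] at hj
  rcases hj with rfl | hj
  · rw [Finset.mem_filter]; exact ⟨hk, h2⟩
  · rw [Finset.mem_filter] at hj ⊢
    refine ⟨hj.1, ?_⟩
    have := hj.2
    have h0 : 0 < r := by
      have : 0 ≤ ρ₁ * 2⁻¹ ^ k ∨ ρ₁ * 2⁻¹ ^ k < 0 := le_or_gt _ _
      linarith
    linarith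

theorem exists_scale {ρ₁ r : ℝ} (hr : 0 < r) (h : r ≤ ρ₁) :
    ∃ k : ℕ, r ≤ ρ₁ * 2⁻¹ ^ k ∧ ρ₁ * 2⁻¹ ^ k < 2 * r := by
  have h1 : 1 ≤ ρ₁ / r := by rwa [le_div_iff₀ hr, one_mul]
  obtain ⟨k, hk1, hk2⟩ := exists_nat_pow_near h1 (one_lt_two (α := ℝ))
  rw [le_div_iff₀ hr] at hk1
  rw [div_lt_iff₀ hr, pow_succ] at hk2
  have h2 : (0:ℝ) < 2 ^ k := by positivity
  refine ⟨k, ?_, ?_⟩
  · rw [inv_pow, ← div_eq_mul_inv, le_div_iff₀ h2]; linarith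
  · rw [inv_pow, ← div_eq_mul_inv, div_lt_iff₀ h2]; linarith

theorem Wt_nonneg {r : ℝ} (hr : 0 ≤ r) : 0 ≤ Wt n β r := by
  unfold Wt
  have := Real.rpow_nonneg hr (-β)
  positivity

theorem Wt_half {r : ℝ} (hn : 2 ≤ n) (hβ1 : β ≤ 1) (hr : 0 < r) : Wt n β (r / 2) ≤ Wt n β r := by
  unfold Wt
  rw [Real.div_rpow hr.le zero_le_two, div_pow, Real.rpow_neg zero_le_two]
  have h1 : (2:ℝ) ^ β ≤ 2 := by
    calc (2:ℝ) ^ β ≤ 2 ^ (1:ℝ) := Real.rpow_le_rpow_of_exponent_le one_le_two hβ1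
      _ = 2 := Real.rpow_one 2
  have h2 : (2:ℝ) ≤ 2 ^ (n - 1) := by
    calc (2:ℝ) = 2 ^ 1 := (pow_one 2).symm
      _ ≤ 2 ^ (n - 1) := pow_le_pow_right₀ one_le_two (by omega)
  have h3 : 0 < (2:ℝ) ^ β := Real.rpow_pos_of_pos two_pos _
  have h4 : 0 ≤ r ^ (-β) := Real.rpow_nonneg hr.le _
  have h5 : r ^ (n - 1) / 2 ^ (n - 1) * (r ^ (-β) / (2 ^ β)⁻¹) =
      (r ^ (n - 1) * r ^ (-β)) * (2 ^ β / 2 ^ (n - 1)) := by
    field_simp
  rw [h5]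
  have h6 : (2:ℝ) ^ β / 2 ^ (n - 1) ≤ 1 := by
    rw [div_le_one (by positivity)]; linarith
  calc _ ≤ (r ^ (n - 1) * r ^ (-β)) * 1 := by gcongr
    _ = _ := mul_one _

open Classical in
theorem refine_ball (hn : 2 ≤ n) (hρ : 0 < ρ) (hΛ : 2 ≤ Λ) (hβ : 0 < β) (hβ1 : β ≤ 1)
    (hΛβ : Λ ^ β ≤ 2) (hD : 1 ≤ D) (hdbl : Dbl X D (2 * ρ₁)) {B : Finset ℕ}
    (hflat : ∀ w ∈ A, ∀ (t : ℝ) (k : ℕ), ρ * Λ ≤ t → t ≤ ρ₁ * 2⁻¹ ^ k → ρ₁ * 2⁻¹ ^ k < 2 * t →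
      k ∉ B → ∃ S : Finset (X × ℝ), (∀ c ∈ S, t / Λ ≤ c.2) ∧
        A ∩ closedBall w (2 * t) ⊆ ⋃ c ∈ S, closedBall c.1 c.2 ∧
        ∑ c ∈ S, c.2 ^ (n - 1) < t ^ (n - 1) / 2) (m : ℕ) :
    ∀ (c : X) (r : ℝ), ρ ≤ r → r ≤ ρ₁ → r ^ (n - 1) < (ρ * Λ) ^ (n - 1) * 2 ^ m →
      ∃ S : Finset (X × ℝ), (∀ c ∈ S, ρ ≤ c.2 ∧ c.2 < ρ * Λ) ∧
        A ∩ closedBall c r ⊆ ⋃ c ∈ S, closedBall c.1 c.2 ∧
        ∑ c ∈ S, Wt n β c.2 ≤ Wt n β r * (D : ℝ) ^ NF ρ₁ B r := by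
  have hD' : (1:ℝ) ≤ D := by exact_mod_cast hD
  have hΛ0 : 0 < Λ := by linarith
  have hone : ∀ (c : X) (r : ℝ), ρ ≤ r → r < ρ * Λ →
      ∃ S : Finset (X × ℝ), (∀ c ∈ S, ρ ≤ c.2 ∧ c.2 < ρ * Λ) ∧
        A ∩ closedBall c r ⊆ ⋃ c ∈ S, closedBall c.1 c.2 ∧
        ∑ c ∈ S, Wt n β c.2 ≤ Wt n β r * (D : ℝ) ^ NF ρ₁ B r := by
    intro c r h1 h2
    refine ⟨{(c, r)}, by simpa using ⟨h1, h2⟩, by simp, ?_⟩
    rw [Finset.sum_singleton]
    exact le_mul_of_one_le_right (Wt_nonneg (hρ.le.trans h1)) (one_le_pow₀ hD')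
  induction m with
  | zero =>
    intro c r h1 h2 h3
    rw [pow_zero, mul_one] at h3
    exact hone c r h1 (lt_of_pow_lt_pow_left₀ _ (by positivity) h3)
  | succ m ih =>
    intro c r h1 h2 h3
    have hr : 0 < r := hρ.trans_le h1
    rcases lt_or_ge r (ρ * Λ) with hlt | hge
    · exact hone c r h1 hlt
    obtain ⟨k, hk1, hk2⟩ := exists_scale hr h2
    have hWr : 0 ≤ Wt n β r := Wt_nonneg hr.le
    by_cases hkB : k ∈ B
    · -- halving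
      obtain ⟨T, hT, hTc⟩ := hdbl c r hr (by linarith)
      have hr2 : ρ ≤ r / 2 := by nlinarith
      have hr3 : (r / 2) ^ (n - 1) < (ρ * Λ) ^ (n - 1) * 2 ^ m := by
        rw [div_pow, div_lt_iff₀ (by positivity)]
        have h4 : (2:ℝ) ≤ 2 ^ (n - 1) := by
          calc (2:ℝ) = 2 ^ 1 := (pow_one 2).symm
            _ ≤ 2 ^ (n - 1) := pow_le_pow_right₀ one_le_two (by omega)
        calc r ^ (n - 1) < (ρ * Λ) ^ (n - 1) * 2 ^ (m + 1) := h3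
          _ = (ρ * Λ) ^ (n - 1) * 2 ^ m * 2 := by ring
          _ ≤ (ρ * Λ) ^ (n - 1) * 2 ^ m * 2 ^ (n - 1) := by gcongr
      choose S hS1 hS2 hS3 using fun z : X => ih z (r / 2) hr2 (by linarith) hr3
      refine ⟨T.biUnion S, ?_, ?_, ?_⟩
      · intro c hc
        obtain ⟨z, -, hz⟩ := Finset.mem_biUnion.1 hc
        exact hS1 z c hz
      · rintro x ⟨hxA, hxc⟩
        obtain ⟨z, hzT, hz⟩ := mem_iUnion₂.1 (hTc hxc)
        obtain ⟨c', hc', hxc'⟩ := mem_iUnion₂.1 (hS2 z ⟨hxA, hz⟩)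
        exact mem_iUnion₂.2 ⟨c', Finset.mem_biUnion.2 ⟨z, hzT, hc'⟩, hxc'⟩
      · refine (sum_biUnion_le' T S _ fun z _ b hb =>
          Wt_nonneg (hρ.le.trans (hS1 z b hb).1)).trans ?_
        have h5 : ∀ z ∈ T, ∑ b ∈ S z, Wt n β b.2 ≤ Wt n β r * (D : ℝ) ^ NF ρ₁ B (r / 2) :=
          fun z _ => (hS3 z).trans (by gcongr; exact Wt_half hn hβ1 hr)
        refine (Finset.sum_le_card_nsmul _ _ _ h5).trans ?_
        rw [nsmul_eq_mul]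
        have h6 : (T.card : ℝ) ≤ D := by exact_mod_cast hT
        have h7 := NF_half hkB hk1 hk2
        calc (T.card : ℝ) * (Wt n β r * (D : ℝ) ^ NF ρ₁ B (r / 2))
            ≤ D * (Wt n β r * (D : ℝ) ^ NF ρ₁ B (r / 2)) := by gcongr
          _ = Wt n β r * (D : ℝ) ^ (NF ρ₁ B (r / 2) + 1) := by rw [pow_succ]; ring
          _ ≤ Wt n β r * (D : ℝ) ^ NF ρ₁ B r := by gcongr
    · -- flat scale
      by_cases hne : (A ∩ closedBall c r).Nonempty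
      swap
      · rw [not_nonempty_iff_eq_empty] at hne
        refine ⟨∅, by simp, by rw [hne]; simp, ?_⟩
        rw [Finset.sum_empty]; positivity
      obtain ⟨w, hwA, hwc⟩ := hne
      obtain ⟨S₀, hS₀, hcov, hsum⟩ := hflat w hwA r k hge hk1 hk2 hkB
      have hb : ∀ b ∈ S₀, ρ ≤ b.2 ∧ b.2 ^ (n - 1) < r ^ (n - 1) / 2 := by
        intro b hb
        have h4 : ρ ≤ b.2 := by
          refine le_trans ?_ (hS₀ b hb)
          rwa [le_div_iff₀ hΛ0]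
        refine ⟨h4, lt_of_le_of_lt ?_ hsum⟩
        refine Finset.single_le_sum (f := fun c : X × ℝ => c.2 ^ (n - 1)) (fun a ha => ?_) hb
        have : 0 ≤ a.2 := by
          refine le_trans ?_ (hS₀ a ha)
          positivity
        positivity
      have hbr : ∀ b ∈ S₀, b.2 ≤ r := by
        intro b hb'
        have h4 := (hb b hb').2
        have h5 : b.2 ^ (n - 1) < r ^ (n - 1) := h4.trans (by
          have : 0 < r ^ (n - 1) := by positivity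
          linarith)
        exact (lt_of_pow_lt_pow_left₀ _ hr.le h5).le
      have hch : ∀ b : X × ℝ, ∃ S : Finset (X × ℝ), b ∈ S₀ → (∀ c ∈ S, ρ ≤ c.2 ∧ c.2 < ρ * Λ) ∧
          A ∩ closedBall b.1 b.2 ⊆ ⋃ c ∈ S, closedBall c.1 c.2 ∧
          ∑ c ∈ S, Wt n β c.2 ≤ Wt n β b.2 * (D : ℝ) ^ NF ρ₁ B b.2 := by
        intro b
        by_cases hb' : b ∈ S₀
        · obtain ⟨S, hS⟩ := ih b.1 b.2 (hb b hb').1 ((hbr b hb').trans h2) (by
            calc b.2 ^ (n - 1) < r ^ (n - 1) / 2 := (hb b hb').2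
              _ < (ρ * Λ) ^ (n - 1) * 2 ^ (m + 1) / 2 := by gcongr
              _ = (ρ * Λ) ^ (n - 1) * 2 ^ m := by ring)
          exact ⟨S, fun _ => hS⟩
        · exact ⟨∅, fun h => absurd h hb'⟩
      choose S hS using hch
      refine ⟨S₀.biUnion S, ?_, ?_, ?_⟩
      · intro c hc
        obtain ⟨z, hz', hz⟩ := Finset.mem_biUnion.1 hc
        exact (hS z hz').1 c hz
      · rintro x ⟨hxA, hxc⟩
        have hx2 : x ∈ A ∩ closedBall w (2 * r) := by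
          refine ⟨hxA, ?_⟩
          rw [mem_closedBall] at hxc hwc ⊢
          have := dist_triangle_right x w c
          linarith
        obtain ⟨z, hzT, hz⟩ := mem_iUnion₂.1 (hcov hx2)
        obtain ⟨c', hc', hxc'⟩ := mem_iUnion₂.1 ((hS z hzT).2.1 ⟨hxA, hz⟩)
        exact mem_iUnion₂.2 ⟨c', Finset.mem_biUnion.2 ⟨z, hzT, hc'⟩, hxc'⟩
      · refine (sum_biUnion_le' S₀ S _ fun z hz b hb =>
          Wt_nonneg (hρ.le.trans ((hS z hz).1 b hb).1)).trans ?_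
        have h5 : ∀ b ∈ S₀, ∑ c ∈ S b, Wt n β c.2 ≤
            b.2 ^ (n - 1) * ((r / Λ) ^ (-β) * (D : ℝ) ^ NF ρ₁ B r) := by
          intro b hb'
          refine (hS b hb').2.2.trans ?_
          have hb0 : 0 < b.2 := hρ.trans_le (hb b hb').1
          have h6 : b.2 ^ (-β) ≤ (r / Λ) ^ (-β) := by
            refine Real.rpow_le_rpow_of_nonpos (by positivity) (hS₀ b hb') (by linarith)
          have h7 : (D : ℝ) ^ NF ρ₁ B b.2 ≤ (D : ℝ) ^ NF ρ₁ B r :=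
            pow_le_pow_right₀ hD' (NF_mono _ _ (hbr b hb'))
          unfold Wt
          rw [mul_assoc]
          have h8 : 0 ≤ (r / Λ) ^ (-β) := Real.rpow_nonneg (by positivity) _
          gcongr
        refine (Finset.sum_le_sum h5).trans ?_
        rw [← Finset.sum_mul]
        have h8 : 0 ≤ (r / Λ) ^ (-β) := Real.rpow_nonneg (by positivity) _
        calc (∑ b ∈ S₀, b.2 ^ (n - 1)) * ((r / Λ) ^ (-β) * (D : ℝ) ^ NF ρ₁ B r)
            ≤ r ^ (n - 1) / 2 * ((r / Λ) ^ (-β) * (D : ℝ) ^ NF ρ₁ B r) := by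
              gcongr
          _ = r ^ (n - 1) * (r ^ (-β) * (Λ ^ β / 2)) * (D : ℝ) ^ NF ρ₁ B r := by
              rw [Real.div_rpow hr.le hΛ0.le, Real.rpow_neg hΛ0.le]
              field_simp
          _ ≤ r ^ (n - 1) * (r ^ (-β) * 1) * (D : ℝ) ^ NF ρ₁ B r := by
              have h9 : 0 ≤ r ^ (-β) := Real.rpow_nonneg hr.le _
              gcongr
              linarith
          _ = _ := by unfold Wt; rw [mul_one]

end Core

open Classical in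
theorem dens : Stmt.DENS := by
  intro X _ n D K₁ N₀ ρ ρ₁ Λ β ε fl A hn hρ hΛ hβ hβ1 hΛβ hD hρρ hdbl hfl hcov hε hHC
  by_contra hcon
  push Not at hcon
  have hD' : (1:ℝ) ≤ D := by exact_mod_cast hD
  have hΛ0 : 0 < Λ := by linarith
  have hρ₁ : 0 < ρ₁ := lt_of_lt_of_le (by positivity) hρρ
  -- the bad scales
  have hfin : {k : ℕ | ¬ fl k}.Finite := by
    by_contra hinf
    obtain ⟨S, hS, hS2⟩ := Set.Infinite.exists_subset_card_eq (s := {k : ℕ | ¬ fl k}) hinf (K₁ + 1)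
    have := hfl S fun k hk => hS hk
    omega
  set B : Finset ℕ := hfin.toFinset with hB
  have hBmem : ∀ k, k ∈ B ↔ ¬ fl k := fun k => by rw [hB, Set.Finite.mem_toFinset]; rfl
  have hBcard : B.card ≤ K₁ := hfl B fun k hk => (hBmem k).1 hk
  have hflat : ∀ w ∈ A, ∀ (t : ℝ) (k : ℕ), ρ * Λ ≤ t → t ≤ ρ₁ * 2⁻¹ ^ k →
      ρ₁ * 2⁻¹ ^ k < 2 * t → k ∉ B → ∃ S : Finset (X × ℝ), (∀ c ∈ S, t / Λ ≤ c.2) ∧
        A ∩ closedBall w (2 * t) ⊆ ⋃ c ∈ S, closedBall c.1 c.2 ∧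
        ∑ c ∈ S, c.2 ^ (n - 1) < t ^ (n - 1) / 2 := by
    intro w hw t k h1 h2 h3 hk
    have hk' : fl k := by
      by_contra h
      exact hk ((hBmem k).2 h)
    have h4 := hcon w hw t k h1 h2 h3 hk'
    unfold HCge at h4
    push Not at h4
    exact h4
  obtain ⟨T, hT, hTc⟩ := hcov
  obtain ⟨m, hm⟩ : ∃ m : ℕ, ρ₁ ^ (n - 1) < (ρ * Λ) ^ (n - 1) * 2 ^ m := by
    obtain ⟨m, hm⟩ := pow_unbounded_of_one_lt (ρ₁ ^ (n - 1) / (ρ * Λ) ^ (n - 1))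
      (one_lt_two (α := ℝ))
    refine ⟨m, ?_⟩
    rw [div_lt_iff₀ (by positivity)] at hm
    linarith
  have hρ₁ρ : ρ ≤ ρ₁ := le_trans (by nlinarith) hρρ
  choose S hS1 hS2 hS3 using fun z : X =>
    refine_ball hn hρ hΛ hβ hβ1 hΛβ hD hdbl hflat m z ρ₁ hρ₁ρ le_rfl hm
  have hfinal := hHC (T.biUnion S) (fun c hc => by
      obtain ⟨z, -, hz⟩ := Finset.mem_biUnion.1 hc
      exact (hS1 z c hz).1) (by
      intro x hx
      obtain ⟨z, hzT, hz⟩ := mem_iUnion₂.1 (hTc hx)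
      obtain ⟨c', hc', hxc'⟩ := mem_iUnion₂.1 (hS2 z ⟨hx, hz⟩)
      exact mem_iUnion₂.2 ⟨c', Finset.mem_biUnion.2 ⟨z, hzT, hc'⟩, hxc'⟩)
  have hstep : ∀ b : X × ℝ, ρ ≤ b.2 → b.2 < ρ * Λ → b.2 ^ (n - 1) ≤
      (ρ * Λ) ^ β * Wt n β b.2 := by
    intro b h1 h2
    have hb0 : 0 < b.2 := hρ.trans_le h1
    have h3 : b.2 ^ (n - 1) = b.2 ^ β * Wt n β b.2 := by
      unfold Wt
      rw [Real.rpow_neg hb0.le]
      have : (0:ℝ) < b.2 ^ β := Real.rpow_pos_of_pos hb0 _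
      field_simp
    calc b.2 ^ (n - 1) = b.2 ^ β * Wt n β b.2 := h3
      _ ≤ (ρ * Λ) ^ β * Wt n β b.2 := by
        have := Wt_nonneg (n := n) (β := β) hb0.le
        gcongr
  have hsum : ∑ c ∈ T.biUnion S, c.2 ^ (n - 1) ≤
      (ρ * Λ) ^ β * (N₀ * (Wt n β ρ₁ * (D : ℝ) ^ K₁)) := by
    calc ∑ c ∈ T.biUnion S, c.2 ^ (n - 1)
        ≤ ∑ c ∈ T.biUnion S, (ρ * Λ) ^ β * Wt n β c.2 := by
          refine Finset.sum_le_sum fun b hb => ?_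
          obtain ⟨z, -, hz⟩ := Finset.mem_biUnion.1 hb
          exact hstep b (hS1 z b hz).1 (hS1 z b hz).2
      _ = (ρ * Λ) ^ β * ∑ c ∈ T.biUnion S, Wt n β c.2 := by rw [Finset.mul_sum]
      _ ≤ (ρ * Λ) ^ β * ∑ z ∈ T, ∑ c ∈ S z, Wt n β c.2 := by
          have : 0 ≤ (ρ * Λ) ^ β := Real.rpow_nonneg (by positivity) _
          gcongr
          exact sum_biUnion_le' T S _ fun z _ b hb => Wt_nonneg (hρ.le.trans (hS1 z b hb).1)
      _ ≤ (ρ * Λ) ^ β * ∑ z ∈ T, Wt n β ρ₁ * (D : ℝ) ^ K₁ := by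
          have : 0 ≤ (ρ * Λ) ^ β := Real.rpow_nonneg (by positivity) _
          gcongr with z hz
          refine (hS3 z).trans ?_
          have h2 := Wt_nonneg (n := n) (β := β) hρ₁.le
          have h3 : (D : ℝ) ^ NF ρ₁ B ρ₁ ≤ (D : ℝ) ^ K₁ :=
            pow_le_pow_right₀ hD' ((NF_le _ _ _).trans hBcard)
          gcongr
      _ ≤ (ρ * Λ) ^ β * (N₀ * (Wt n β ρ₁ * (D : ℝ) ^ K₁)) := by
          rw [Finset.sum_const, nsmul_eq_mul]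
          have : 0 ≤ (ρ * Λ) ^ β := Real.rpow_nonneg (by positivity) _
          have h2 := Wt_nonneg (n := n) (β := β) hρ₁.le
          have h3 : (T.card : ℝ) ≤ N₀ := by exact_mod_cast hT
          gcongr
  have hkey : (ρ * Λ) ^ β * (N₀ * (Wt n β ρ₁ * (D : ℝ) ^ K₁)) =
      N₀ * (D : ℝ) ^ K₁ * (ρ * Λ / ρ₁) ^ β * ρ₁ ^ (n - 1) := by
    unfold Wt
    rw [Real.div_rpow (by positivity) hρ₁.le, Real.rpow_neg hρ₁.le]
    have : (0:ℝ) < ρ₁ ^ β := Real.rpow_pos_of_pos hρ₁ _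
    field_simp
  have hP : (0:ℝ) < ρ₁ ^ (n - 1) := by positivity
  have hlast : N₀ * (D : ℝ) ^ K₁ * (ρ * Λ / ρ₁) ^ β ≤
      2 ^ n * N₀ * (D : ℝ) ^ (2 * K₁) * (ρ * Λ / ρ₁) ^ β := by
    have h1 : 0 ≤ (ρ * Λ / ρ₁) ^ β := Real.rpow_nonneg (by positivity) _
    gcongr
    · have : (1:ℝ) ≤ 2 ^ n := one_le_pow₀ one_le_two
      have h0 : (0:ℝ) ≤ N₀ := Nat.cast_nonneg _
      nlinarith
    · omega
  have h1 : ε * ρ₁ ^ (n - 1) < ε * ρ₁ ^ (n - 1) := by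
    calc ε * ρ₁ ^ (n - 1) ≤ _ := hfinal.trans hsum
      _ = N₀ * (D : ℝ) ^ K₁ * (ρ * Λ / ρ₁) ^ β * ρ₁ ^ (n - 1) := hkey
      _ < ε * ρ₁ ^ (n - 1) := by
        gcongr
        exact hlast.trans_lt hε
  exact lt_irrefl _ h1

end Vale.Agent.P210.R2.H34
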