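import Vale.Agent.P210.R2.H401.CSpec

open Set Metric
open Vale.Agent.P210.R2.H53 (HCge)

set_option linter.unusedSectionVars false

noncomputable section

namespace Vale.Agent.P210.R2.H34.DC

theorem sum_biUnion_le' {α β : Type*} [DecidableEq β] (s : Finset α) (t : α → Finset β) (f : β → ℝ)
    (hf : ∀ a ∈ s, ∀ b ∈ t a, 0 ≤ f b) : ∑ b ∈ s.biUnion t, f b ≤ ∑ a ∈ s, ∑ b ∈ t a, f b := by
  classical
  induction s using Finset.induction_on with
  | empty => simp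
  | @insert a s ha ih =>
    rw [Finset.biUnion_insert, Finset.sum_insert ha]
    have h1 : ∑ b ∈ t a ∪ s.biUnion t, f b ≤ ∑ b ∈ t a, f b + ∑ b ∈ s.biUnion t, f b := by
      rw [← Finset.sum_union_inter]
      refine le_add_of_nonneg_right (Finset.sum_nonneg fun b hb => ?_)
      exact hf a (Finset.mem_insert_self _ _) b (Finset.mem_inter.1 hb).1
    refine h1.trans ?_
    gcongr
    exact ih fun a' ha' => hf a' (Finset.mem_insert_of_mem ha')

section Core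

variable {X : Type} [MetricSpace X] {n b D N : ℕ} {ρ t₀ q : ℝ} {A : Set X} {B : Finset ℕ}

/-- number of the bad scales from `k` on -/
def NB (B : Finset ℕ) (k : ℕ) : ℕ := (B.filter fun j => k ≤ j).card

theorem NB_anti (B : Finset ℕ) {k j : ℕ} (h : k ≤ j) : NB B j ≤ NB B k := by
  refine Finset.card_le_card fun i hi => ?_
  rw [Finset.mem_filter] at hi ⊢
  exact ⟨hi.1, h.trans hi.2⟩

theorem NB_le (B : Finset ℕ) (k : ℕ) : NB B k ≤ B.card :=
  Finset.card_le_card (Finset.filter_subset _ _)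

theorem NB_succ {B : Finset ℕ} {k : ℕ} (hk : k ∈ B) : NB B (k + 1) + 1 ≤ NB B k := by
  have h3 : k ∉ B.filter fun j => k + 1 ≤ j := by
    rw [Finset.mem_filter]
    rintro ⟨-, h⟩
    omega
  rw [NB, ← Finset.card_insert_of_notMem h3]
  refine Finset.card_le_card fun j hj => ?_
  rw [Finset.mem_insert] at hj
  rcases hj with rfl | hj
  · rw [Finset.mem_filter]; exact ⟨hk, le_rfl⟩
  · rw [Finset.mem_filter] at hj ⊢
    exact ⟨hj.1, by omega⟩

/-- the bound -/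
def Fb (n b D N : ℕ) (t₀ q : ℝ) (B : Finset ℕ) (k : ℕ) : ℝ :=
  2 ^ n * (D : ℝ) ^ NB B k * (t₀ / 2 ^ k) ^ (n - 1) * q ^ (N + b - k)

theorem Fb_nonneg (ht : 0 < t₀) (hq : 0 ≤ q) (k : ℕ) : 0 ≤ Fb n b D N t₀ q B k := by
  unfold Fb; positivity

theorem exists_scale {t r : ℝ} {m : ℕ} (hr : t / 2 ^ m ≤ r) (h : r ≤ t) (ht : 0 < t) :
    ∃ j ≤ m, r ≤ t / 2 ^ j ∧ t / 2 ^ j ≤ 2 * r := by
  induction m with
  | zero => exact ⟨0, le_rfl, by simpa using h, by simp at hr ⊢; linarith⟩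
  | succ m ih =>
    rcases le_or_gt (t / 2 ^ m) r with h1 | h1
    · obtain ⟨j, hj, h2⟩ := ih h1
      exact ⟨j, hj.trans (Nat.le_succ m), h2⟩
    · refine ⟨m, Nat.le_succ m, h1.le, ?_⟩
      rw [pow_succ, ← div_div] at hr
      linarith

open Classical in
theorem refine_ball (hn : 2 ≤ n) (hb1 : 1 ≤ b) (hρ : 0 < ρ) (hD : 1 ≤ D) (ht₀ : 0 < t₀)
    (hρt : ρ ≤ t₀ / 2 ^ (N + b)) (hq1 : q ≤ 1) (hq2 : 1 / 2 ≤ q) (hqb : 1 / 2 ≤ q ^ b)
    (hdbl : ∀ k < N, ∀ w : X, ∃ F : Finset X, F.card ≤ D ∧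
      A ∩ closedBall w (2 * (t₀ / 2 ^ k)) ⊆ ⋃ c ∈ F, closedBall c (t₀ / 2 ^ (k + 1)))
    (hflat : ∀ k < N, k ∉ B → ∀ w ∈ A, ∃ S : Finset (X × ℝ),
        (∀ c ∈ S, t₀ / 2 ^ k / 2 ^ b ≤ c.2) ∧
        A ∩ closedBall w (2 * (t₀ / 2 ^ k)) ⊆ ⋃ c ∈ S, closedBall c.1 c.2 ∧
        ∑ c ∈ S, c.2 ^ (n - 1) < (t₀ / 2 ^ k) ^ (n - 1) / 2 ^ n) (m : ℕ) :
    ∀ k, N + b - m ≤ k → k ≤ N + b → ∀ c : X,
      ∃ S : Finset (X × ℝ), (∀ c ∈ S, ρ ≤ c.2) ∧
        A ∩ closedBall c (t₀ / 2 ^ k) ⊆ ⋃ c ∈ S, closedBall c.1 c.2 ∧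
        ∑ c ∈ S, c.2 ^ (n - 1) ≤ Fb n b D N t₀ q B k := by
  have hD' : (1:ℝ) ≤ D := by exact_mod_cast hD
  have hq0 : 0 < q := by linarith
  have htp : ∀ k : ℕ, 0 < t₀ / 2 ^ k := fun k => by positivity
  have hanti : ∀ {j k : ℕ}, j ≤ k → t₀ / 2 ^ k ≤ t₀ / 2 ^ j := by
    intro j k h
    exact div_le_div_of_nonneg_left ht₀.le (by positivity) (pow_le_pow_right₀ one_le_two h)
  have htriv : ∀ k, N ≤ k → k ≤ N + b → ∀ c : X,
      ∃ S : Finset (X × ℝ), (∀ c ∈ S, ρ ≤ c.2) ∧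
        A ∩ closedBall c (t₀ / 2 ^ k) ⊆ ⋃ c ∈ S, closedBall c.1 c.2 ∧
        ∑ c ∈ S, c.2 ^ (n - 1) ≤ Fb n b D N t₀ q B k := by
    intro k h1 h2 c
    refine ⟨{(c, t₀ / 2 ^ k)}, by simpa using hρt.trans (hanti h2), by simp, ?_⟩
    rw [Finset.sum_singleton]
    unfold Fb
    have h3 : (1:ℝ) / 2 ≤ q ^ (N + b - k) :=
      hqb.trans (pow_le_pow_of_le_one hq0.le hq1 (by omega))
    have h4 : (2:ℝ) ≤ 2 ^ n := by
      calc (2:ℝ) = 2 ^ 1 := (pow_one 2).symm
        _ ≤ 2 ^ n := pow_le_pow_right₀ one_le_two (by omega)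
    have h5 : (1:ℝ) ≤ (D : ℝ) ^ NB B k := one_le_pow₀ hD'
    have h6 : (0:ℝ) < (t₀ / 2 ^ k) ^ (n - 1) := by positivity
    calc (t₀ / 2 ^ k) ^ (n - 1) = 2 * 1 * (t₀ / 2 ^ k) ^ (n - 1) * (1 / 2) := by ring
      _ ≤ _ := by gcongr
  induction m with
  | zero =>
    intro k h1 h2 c
    exact htriv k (by omega) h2 c
  | succ m ih =>
    intro k h1 h2 c
    rcases le_or_gt N k with hkN | hkN
    · exact htriv k hkN h2 c
    rcases Nat.lt_or_ge k (N + b - m) with hkm | hkm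
    swap
    · exact ih k hkm h2 c
    by_cases hkB : k ∈ B
    · -- bad scale
      obtain ⟨T, hT, hTc⟩ := hdbl k hkN c
      choose S hS1 hS2 hS3 using fun z : X => ih (k + 1) (by omega) (by omega) z
      refine ⟨T.biUnion S, ?_, ?_, ?_⟩
      · intro c hc
        obtain ⟨z, -, hz⟩ := Finset.mem_biUnion.1 hc
        exact hS1 z c hz
      · rintro x ⟨hxA, hxc⟩
        have hx2 : x ∈ A ∩ closedBall c (2 * (t₀ / 2 ^ k)) := by
          refine ⟨hxA, closedBall_subset_closedBall ?_ hxc⟩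
          linarith [htp k]
        obtain ⟨z, hzT, hz⟩ := mem_iUnion₂.1 (hTc hx2)
        obtain ⟨c', hc', hxc'⟩ := mem_iUnion₂.1 (hS2 z ⟨hxA, hz⟩)
        exact mem_iUnion₂.2 ⟨c', Finset.mem_biUnion.2 ⟨z, hzT, hc'⟩, hxc'⟩
      · refine (sum_biUnion_le' T S _ fun z _ b hb => by
          have := hρ.le.trans (hS1 z b hb); positivity).trans ?_
        refine (Finset.sum_le_card_nsmul _ _ _ fun z _ => hS3 z).trans ?_
        rw [nsmul_eq_mul]
        have h6 : (T.card : ℝ) ≤ D := by exact_mod_cast hT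
        have h7 := NB_succ hkB
        unfold Fb
        have h8 : (t₀ / 2 ^ (k + 1)) ^ (n - 1) ≤ (t₀ / 2 ^ k) ^ (n - 1) * q := by
          have h9 : t₀ / 2 ^ (k + 1) = t₀ / 2 ^ k * (1 / 2) := by rw [pow_succ]; field_simp
          rw [h9, mul_pow]
          have h10 : (1 / 2 : ℝ) ^ (n - 1) ≤ q := by
            calc (1 / 2 : ℝ) ^ (n - 1) ≤ (1 / 2) ^ 1 :=
                  pow_le_pow_of_le_one (by norm_num) (by norm_num) (by omega)
              _ ≤ q := by linarith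
          have := htp k
          gcongr
        have h11 : q ^ (N + b - k) = q * q ^ (N + b - (k + 1)) := by
          rw [← pow_succ']; congr 1; omega
        have h12 : (D : ℝ) * (D : ℝ) ^ NB B (k + 1) ≤ (D : ℝ) ^ NB B k := by
          rw [← pow_succ']
          exact pow_le_pow_right₀ hD' h7
        calc (T.card : ℝ) * (2 ^ n * (D : ℝ) ^ NB B (k + 1) * (t₀ / 2 ^ (k + 1)) ^ (n - 1) *
              q ^ (N + b - (k + 1)))
            ≤ D * (2 ^ n * (D : ℝ) ^ NB B (k + 1) * ((t₀ / 2 ^ k) ^ (n - 1) * q) *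
              q ^ (N + b - (k + 1))) := by gcongr
          _ = 2 ^ n * (D * (D : ℝ) ^ NB B (k + 1)) * (t₀ / 2 ^ k) ^ (n - 1) *
              (q * q ^ (N + b - (k + 1))) := by ring
          _ ≤ 2 ^ n * (D : ℝ) ^ NB B k * (t₀ / 2 ^ k) ^ (n - 1) *
              (q * q ^ (N + b - (k + 1))) := by
              have := htp k
              gcongr
          _ = _ := by rw [h11]
    · -- good scale
      by_cases hne : (A ∩ closedBall c (t₀ / 2 ^ k)).Nonempty
      swap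
      · rw [not_nonempty_iff_eq_empty] at hne
        refine ⟨∅, by simp, by rw [hne]; simp, ?_⟩
        rw [Finset.sum_empty]; exact Fb_nonneg ht₀ hq0.le k
      obtain ⟨w, hwA, hwc⟩ := hne
      obtain ⟨S₀, hS₀, hcov, hsum⟩ := hflat k hkN hkB w hwA
      have hb0 : ∀ s ∈ S₀, 0 < s.2 := fun s hs => by
        have := hS₀ s hs
        have h : 0 < t₀ / 2 ^ k / 2 ^ b := by positivity
        linarith
      have hbr : ∀ s ∈ S₀, s.2 ≤ t₀ / 2 ^ k / 2 := by
        intro s hs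
        have h4 : s.2 ^ (n - 1) < (t₀ / 2 ^ k) ^ (n - 1) / 2 ^ n := by
          refine lt_of_le_of_lt ?_ hsum
          refine Finset.single_le_sum (f := fun c : X × ℝ => c.2 ^ (n - 1)) (fun a ha => ?_) hs
          have := (hb0 a ha).le
          positivity
        have h5 : s.2 ^ (n - 1) < (t₀ / 2 ^ k / 2) ^ (n - 1) := by
          refine h4.trans_le ?_
          rw [div_pow (t₀ / 2 ^ k) 2]
          refine div_le_div_of_nonneg_left (by have := htp k; positivity) (by positivity)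
            (pow_le_pow_right₀ one_le_two (by omega))
        exact (lt_of_pow_lt_pow_left₀ _ (by have := htp k; positivity) h5).le
      have hch : ∀ s : X × ℝ, ∃ S : Finset (X × ℝ), s ∈ S₀ → (∀ c ∈ S, ρ ≤ c.2) ∧
          A ∩ closedBall s.1 s.2 ⊆ ⋃ c ∈ S, closedBall c.1 c.2 ∧
          ∑ c ∈ S, c.2 ^ (n - 1) ≤ s.2 ^ (n - 1) *
            (2 ^ n * 2 ^ n * (D : ℝ) ^ NB B k * q ^ (N + b - k)) := by
        intro s
        by_cases hs : s ∈ S₀
        · have h3 : t₀ / 2 ^ (k + 1) = t₀ / 2 ^ k / 2 := by rw [pow_succ, ← div_div]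
          have h4 : t₀ / 2 ^ (k + 1) / 2 ^ (b - 1) ≤ s.2 := by
            refine le_trans (le_of_eq ?_) (hS₀ s hs)
            rw [div_div, div_div, ← pow_add, ← pow_add]
            congr 2
            omega
          obtain ⟨j', hj', hj1, hj2⟩ := exists_scale h4 (h3 ▸ hbr s hs) (htp (k + 1))
          rw [div_div, ← pow_add] at hj1 hj2
          set j := k + 1 + j' with hj
          obtain ⟨S, hS1, hS2, hS3⟩ := ih j (by omega) (by omega) s.1
          refine ⟨S, fun _ => ⟨hS1, ?_, hS3.trans ?_⟩⟩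
          · rintro x ⟨hxA, hxc⟩
            exact hS2 ⟨hxA, closedBall_subset_closedBall hj1 hxc⟩
          · unfold Fb
            have h5 : q ^ (N + b - j) ≤ 2 * q ^ (N + b - k) := by
              have h6 : q ^ (N + b - k) = q ^ (N + b - j) * q ^ (j - k) := by
                rw [← pow_add]; congr 1; omega
              have h7 : (1:ℝ) / 2 ≤ q ^ (j - k) :=
                hqb.trans (pow_le_pow_of_le_one hq0.le hq1 (by omega))
              have h8 : 0 ≤ q ^ (N + b - j) := by positivity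
              rw [h6]
              nlinarith
            have h6 : (D : ℝ) ^ NB B j ≤ (D : ℝ) ^ NB B k :=
              pow_le_pow_right₀ hD' (NB_anti B (by omega))
            have h7 := htp j
            have h8 := hb0 s hs
            have h9 : (2:ℝ) ^ (n - 1) * 2 = 2 ^ n := by rw [← pow_succ]; congr 1; omega
            calc 2 ^ n * (D : ℝ) ^ NB B j * (t₀ / 2 ^ j) ^ (n - 1) * q ^ (N + b - j)
                ≤ 2 ^ n * (D : ℝ) ^ NB B k * (2 * s.2) ^ (n - 1) * (2 * q ^ (N + b - k)) := by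
                  gcongr
              _ = s.2 ^ (n - 1) * (2 ^ n * (2 ^ (n - 1) * 2) * (D : ℝ) ^ NB B k *
                  q ^ (N + b - k)) := by rw [mul_pow]; ring
              _ = _ := by rw [h9]
        · exact ⟨∅, fun h => absurd h hs⟩
      choose S hS using hch
      refine ⟨S₀.biUnion S, ?_, ?_, ?_⟩
      · intro c hc
        obtain ⟨z, hz', hz⟩ := Finset.mem_biUnion.1 hc
        exact (hS z hz').1 c hz
      · rintro x ⟨hxA, hxc⟩
        have hx2 : x ∈ A ∩ closedBall w (2 * (t₀ / 2 ^ k)) := by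
          refine ⟨hxA, ?_⟩
          rw [mem_closedBall] at hxc hwc ⊢
          have := dist_triangle_right x w c
          linarith
        obtain ⟨z, hzT, hz⟩ := mem_iUnion₂.1 (hcov hx2)
        obtain ⟨c', hc', hxc'⟩ := mem_iUnion₂.1 ((hS z hzT).2.1 ⟨hxA, hz⟩)
        exact mem_iUnion₂.2 ⟨c', Finset.mem_biUnion.2 ⟨z, hzT, hc'⟩, hxc'⟩
      · refine (sum_biUnion_le' S₀ S _ fun z hz b hb => by
          have := hρ.le.trans ((hS z hz).1 b hb); positivity).trans ?_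
        refine (Finset.sum_le_sum fun s hs => (hS s hs).2.2).trans ?_
        rw [← Finset.sum_mul]
        calc (∑ b ∈ S₀, b.2 ^ (n - 1)) * (2 ^ n * 2 ^ n * (D : ℝ) ^ NB B k * q ^ (N + b - k))
            ≤ (t₀ / 2 ^ k) ^ (n - 1) / 2 ^ n *
              (2 ^ n * 2 ^ n * (D : ℝ) ^ NB B k * q ^ (N + b - k)) := by gcongr
          _ = Fb n b D N t₀ q B k := by
              unfold Fb
              field_simp

end Core

open Classical in
theorem dens : H401.Stmt.DENS := by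
  intro X _ n b D N N₀ K₁ ρ t₀ ε A B hn hb hD ht₀ hρ hρt hB hdbl hcov hHC hε
  by_contra hcon
  push Not at hcon
  have hD' : (1:ℝ) ≤ D := by exact_mod_cast hD
  have hb' : (1:ℝ) ≤ b := by exact_mod_cast hb
  set q : ℝ := 1 - 1 / (2 * b) with hq
  have h2b : (1:ℝ) / (2 * b) ≤ 1 / 2 := by
    rw [div_le_div_iff₀ (by positivity) two_pos]; linarith
  have hq1 : q ≤ 1 := by
    have : (0:ℝ) ≤ 1 / (2 * b) := by positivity
    linarith
  have hq2 : 1 / 2 ≤ q := by linarith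
  have hqb : 1 / 2 ≤ q ^ b := by
    have h1 := one_add_mul_le_pow (a := -(1 / (2 * (b : ℝ)))) (by linarith) b
    have h2 : (1:ℝ) + b * -(1 / (2 * b)) = 1 / 2 := by field_simp; norm_num
    rw [h2] at h1
    rw [hq, sub_eq_add_neg]
    exact h1
  have hflat : ∀ k < N, k ∉ B → ∀ w ∈ A, ∃ S : Finset (X × ℝ),
        (∀ c ∈ S, t₀ / 2 ^ k / 2 ^ b ≤ c.2) ∧
        A ∩ closedBall w (2 * (t₀ / 2 ^ k)) ⊆ ⋃ c ∈ S, closedBall c.1 c.2 ∧
        ∑ c ∈ S, c.2 ^ (n - 1) < (t₀ / 2 ^ k) ^ (n - 1) / 2 ^ n := by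
    intro k hk hkB w hw
    have h4 := hcon k hk hkB w hw
    unfold HCge at h4
    push Not at h4
    exact h4
  obtain ⟨T, hT, hTc⟩ := hcov
  choose S hS1 hS2 hS3 using fun z : X =>
    refine_ball hn hb hρ hD ht₀ hρt hq1 hq2 hqb hdbl hflat (N + b) 0 (by omega) (by omega) z
  rw [pow_zero, div_one] at hS2
  have hfinal := hHC (T.biUnion S) (fun c hc => by
      obtain ⟨z, -, hz⟩ := Finset.mem_biUnion.1 hc
      exact hS1 z c hz) (by
      intro x hx
      obtain ⟨z, hzT, hz⟩ := mem_iUnion₂.1 (hTc hx)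
      obtain ⟨c', hc', hxc'⟩ := mem_iUnion₂.1 (hS2 z ⟨hx, hz⟩)
      exact mem_iUnion₂.2 ⟨c', Finset.mem_biUnion.2 ⟨z, hzT, hc'⟩, hxc'⟩)
  have hq0 : 0 < q := by linarith
  have hF : Fb n b D N t₀ q B 0 ≤ 2 ^ n * (D : ℝ) ^ K₁ * t₀ ^ (n - 1) * q ^ N := by
    unfold Fb
    rw [pow_zero, div_one]
    have h1 : (D : ℝ) ^ NB B 0 ≤ (D : ℝ) ^ K₁ := pow_le_pow_right₀ hD' ((NB_le B 0).trans hB)
    have h2 : q ^ (N + b - 0) ≤ q ^ N := pow_le_pow_of_le_one hq0.le hq1 (by omega)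
    gcongr
  have hsum : ∑ c ∈ T.biUnion S, c.2 ^ (n - 1) ≤
      N₀ * (2 ^ n * (D : ℝ) ^ K₁ * t₀ ^ (n - 1) * q ^ N) := by
    refine (sum_biUnion_le' T S _ fun z _ c hc => by
      have := hρ.le.trans (hS1 z c hc); positivity).trans ?_
    refine (Finset.sum_le_card_nsmul _ _ _ fun z _ => (hS3 z).trans hF).trans ?_
    rw [nsmul_eq_mul]
    have h3 : (T.card : ℝ) ≤ N₀ := by exact_mod_cast hT
    gcongr
  have hP : (0:ℝ) < t₀ ^ (n - 1) := by positivity
  have h1 : ε * t₀ ^ (n - 1) < ε * t₀ ^ (n - 1) := by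
    calc ε * t₀ ^ (n - 1) ≤ _ := hfinal.trans hsum
      _ = (N₀ * 2 ^ n * (D : ℝ) ^ K₁ * q ^ N) * t₀ ^ (n - 1) := by ring
      _ < ε * t₀ ^ (n - 1) := by gcongr
  exact lt_irrefl _ h1

end Vale.Agent.P210.R2.H34.DC
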