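import Vale.Agent.P210.R2.H53.RCont

open scoped Topology NNReal
open Set Metric

noncomputable section

namespace Vale.Agent.P210.R2.H34

open H53

/-- product of `L` consecutive terms -/
def prodL (b : ℕ → ℝ) (L N : ℕ) : ℝ := ∏ i ∈ Finset.range L, b (N + i)

theorem prodL_succ (b : ℕ → ℝ) (L N : ℕ) : prodL b L (N + 1) * b N = prodL b L N * b (N + L) := by
  unfold prodL
  have h1 := Finset.prod_range_succ (fun i => b (N + i)) L
  have h2 := Finset.prod_range_succ' (fun i => b (N + i)) L
  rw [add_zero] at h2
  rw [← h1, h2]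
  congr 1
  refine Finset.prod_congr rfl fun i _ => ?_
  congr 1
  ring

theorem flat_count {b : ℕ → ℝ} {L : ℕ} {q : ℝ} (hq : 1 ≤ q) (hb : ∀ k, 0 < b k)
    (hmono : Monotone b) (S : Finset ℕ) (hS : ∀ k ∈ S, q * b k ≤ b (k + L)) (N : ℕ) :
    q ^ (S.filter (· < N)).card * prodL b L 0 ≤ prodL b L N := by
  have hpos : ∀ N, 0 < prodL b L N := fun N => Finset.prod_pos fun i _ => hb _
  induction N with
  | zero => simp
  | succ N ih =>
    have h1 := prodL_succ b L N
    by_cases hN : N ∈ S
    · have h2 : S.filter (· < N + 1) = insert N (S.filter (· < N)) := by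
        ext k
        simp only [Finset.mem_filter, Finset.mem_insert]
        constructor
        · rintro ⟨hk, hk2⟩
          rcases eq_or_ne k N with h | h
          · exact Or.inl h
          · exact Or.inr ⟨hk, by omega⟩
        · rintro (rfl | ⟨hk, hk2⟩)
          · exact ⟨hN, by omega⟩
          · exact ⟨hk, by omega⟩
      have h3 : N ∉ S.filter (· < N) := by simp
      rw [h2, Finset.card_insert_of_notMem h3, pow_succ]
      have h4 : prodL b L N * (q * b N) ≤ prodL b L (N + 1) * b N := by
        rw [h1]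
        exact mul_le_mul_of_nonneg_left (hS N hN) (hpos N).le
      have h5 : q * prodL b L N ≤ prodL b L (N + 1) := by
        have : (q * prodL b L N) * b N ≤ prodL b L (N + 1) * b N := by linarith
        exact le_of_mul_le_mul_right this (hb N)
      calc q ^ (S.filter (· < N)).card * q * prodL b L 0
          = q * (q ^ (S.filter (· < N)).card * prodL b L 0) := by ring
        _ ≤ q * prodL b L N := by gcongr
        _ ≤ _ := h5
    · have h2 : S.filter (· < N + 1) = S.filter (· < N) := by
        ext k
        simp only [Finset.mem_filter]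
        constructor
        · rintro ⟨hk, hk2⟩
          refine ⟨hk, ?_⟩
          rcases eq_or_ne k N with h | h
          · exact absurd (h ▸ hk) hN
          · omega
        · rintro ⟨hk, hk2⟩
          exact ⟨hk, by omega⟩
      rw [h2]
      refine ih.trans ?_
      have h4 : prodL b L N * b N ≤ prodL b L (N + 1) * b N := by
        rw [h1]
        exact mul_le_mul_of_nonneg_left (hmono (by omega)) (hpos N).le
      exact le_of_mul_le_mul_right h4 (hb N)

theorem flat : Stmt.FLAT := by
  intro L e B he he1 hB hL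
  have hq : 1 < 1 + e / 2 := by linarith
  obtain ⟨K, hK⟩ := pow_unbounded_of_one_lt ((2 * B) ^ L) hq
  refine ⟨K, ?_⟩
  intro a b m ha hab hmono hm S hS
  have hb : ∀ k, 0 < b k := fun k => (ha k).trans_le (hab k).1
  have hS' : ∀ k ∈ S, (1 + e / 2) * b k ≤ b (k + L) := by
    intro k hk
    have h1 := (hS k hk).2
    have h2 := (hab k).2
    have h3 := (hab (k + L)).1
    have h4 := ha k
    calc (1 + e / 2) * b k ≤ (1 + e / 2) * ((1 + e / 4) * a k) := by gcongr
      _ = (1 + 3 * e / 4 + e ^ 2 / 8) * a k := by ring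
      _ ≤ (1 + e) * a k := by
          have h5 : 1 + 3 * e / 4 + e ^ 2 / 8 ≤ 1 + e := by nlinarith
          exact mul_le_mul_of_nonneg_right h5 h4.le
      _ ≤ _ := h1.le.trans h3
  have h1 := flat_count (L := L) hq.le hb hmono S hS' (m + 1)
  have h2 : S.filter (· < m + 1) = S := by
    refine Finset.filter_true_of_mem fun k hk => ?_
    have := (hS k hk).1
    omega
  rw [h2] at h1
  have hbm : b (m + L) ≤ 2 * B * b 0 := by
    calc b (m + L) ≤ (1 + e / 4) * a (m + L) := (hab _).2
      _ ≤ 2 * (B * a 0) := by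
          have : 0 < a (m + L) := ha _
          have h5 : 0 < B * a 0 := mul_pos hB (ha 0)
          gcongr
          linarith
      _ ≤ 2 * (B * b 0) := by
          have := (hab 0).1
          gcongr
      _ = _ := by ring
  have h3 : prodL b L (m + 1) ≤ (2 * B * b 0) ^ L := by
    unfold prodL
    calc ∏ i ∈ Finset.range L, b (m + 1 + i) ≤ ∏ _i ∈ Finset.range L, (2 * B * b 0) := by
          refine Finset.prod_le_prod (fun i _ => (hb _).le) fun i hi => ?_
          rw [Finset.mem_range] at hi
          exact (hmono (by omega)).trans hbm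
      _ = _ := by rw [Finset.prod_const, Finset.card_range]
  have h4 : b 0 ^ L ≤ prodL b L 0 := by
    unfold prodL
    calc b 0 ^ L = ∏ _i ∈ Finset.range L, b 0 := by rw [Finset.prod_const, Finset.card_range]
      _ ≤ _ := Finset.prod_le_prod (fun i _ => (hb _).le) fun i _ => hmono (by omega)
  have h5 : (1 + e / 2) ^ S.card * b 0 ^ L ≤ (2 * B) ^ L * b 0 ^ L := by
    calc (1 + e / 2) ^ S.card * b 0 ^ L ≤ (1 + e / 2) ^ S.card * prodL b L 0 := by gcongr
      _ ≤ (2 * B * b 0) ^ L := h1.trans h3
      _ = _ := by rw [mul_pow]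
  have h6 : (1 + e / 2) ^ S.card ≤ (2 * B) ^ L :=
    le_of_mul_le_mul_right h5 (pow_pos (hb 0) L)
  by_contra hcon
  push Not at hcon
  have h7 : (1 + e / 2) ^ K ≤ (1 + e / 2) ^ S.card := pow_le_pow_right₀ hq.le hcon.le
  linarith

end Vale.Agent.P210.R2.H34
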